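import Vale.Agent.P159.T1.S.H226.Fx

/-!
**S.FX**: proof of `StmtFx` (P159, plan 118).
-/

open Filter Topology

namespace Vale.Agent.P159.T1.S.H226

open Vale.Agent.P159.T1.D Vale.Agent.P159.T1.S
open Vale.Agent.P159.T1.S.H757 (wz2)
open Vale.Agent.P159.T1.H775 (lap)

/-- the divergence of the gradient -/
lemma dv_dr_lap (v : Z2 → ℝ) (f : Z2) : dv (dr v) f = -lap v f := by
  obtain ⟨i, j⟩ := f
  simp only [dv, dr, lap, lf, rt, Bool.false_eq_true, if_false, if_true]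
  have e1 : (i + 1 - 1 : ℤ) = i := by ring
  have e2 : (j + 1 - 1 : ℤ) = j := by ring
  rw [e1, e2]
  ring

/-- the harmonic function is nonnegative -/
lemma harm_nonneg {R : Finset Z2} {t v : Z2 → ℝ} (h : Harm R t v) (ht : ∀ f, 0 ≤ t f) (f : Z2) :
    0 ≤ v f := by
  have h1 := H775.le_of_sub (R := R) (v := fun g => -v g) (M := 0)
    (fun p hp => by rw [H775.lap_neg, h.2 p hp, neg_zero])
    (fun p hp => by
      rw [h.1 p hp]
      linarith [ht p]) f
  linarith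

lemma nrm_nm (f : Z2) : nrm f = (nm f : ℝ) := by
  unfold nrm nm
  rw [Nat.cast_max, Nat.cast_natAbs, Nat.cast_natAbs]
  push_cast
  rfl

/-- off the slit box: in the slit rows near a tip or far from both tips -/
lemma off_cases {R r : ℕ} (hR : r ≤ R) {f : Z2} (hf : f ∉ SB R r) :
    (f.2 = -1 ∧ f.1 < 0) ∨ (f.2 = -1 ∧ (r : ℤ) ≤ f.1) ∨ (r ≤ nm f ∧ r ≤ nm (mir r f)) := by
  rw [H565.mem_SB] at hf
  by_cases h : f.2 = -1 ∧ (f.1 < 0 ∨ (r : ℤ) ≤ f.1)
  · rcases h.2 with h1 | h1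
    · exact Or.inl ⟨h.1, h1⟩
    · exact Or.inr (Or.inl ⟨h.1, h1⟩)
  · right; right
    have h1 : ¬ (-(R : ℤ) ≤ f.1 ∧ f.1 < r + R ∧ -(R : ℤ) ≤ f.2 ∧ f.2 < R) := fun h2 => hf ⟨h2, h⟩
    unfold nm mir
    simp only
    constructor <;> omega

section geo

variable {q r R : ℕ} {c1 K : ℝ} {n0 : ℕ} {N : Finset Z2} {t : Z2 → ℝ}

lemma t_far (hT : Tent K c1 n0 r t) {f : Z2} (hf : 2 * (c1 * r) ≤ ns r f) : t f = 0 :=
  hT.far f (by linarith)

lemma t_off (hrR : r ≤ R) (hc1 : 0 < c1) (hc : c1 ≤ 1 / 16) (hT : Tent K c1 n0 r t) {f : Z2}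
    (hf : f ∉ SB R r) : t f = 0 := by
  rcases off_cases hrR hf with h | h | h
  · exact hT.slit f ⟨h.1, Or.inl h.2⟩
  · exact hT.slit f ⟨h.1, Or.inr h.2⟩
  · refine t_far hT ?_
    unfold ns
    have h1 : r ≤ min (nm f) (nm (mir r f)) := le_min h.1 h.2
    have h2 : (r : ℝ) ≤ ((min (nm f) (nm (mir r f)) : ℕ) : ℝ) := by exact_mod_cast h1
    nlinarith [(Nat.cast_nonneg r : (0 : ℝ) ≤ r)]

lemma ns_le {f : Z2} {z : ℝ} (h1 : z ≤ nm f) (h2 : z ≤ nm (mir r f)) : z ≤ ns r f := by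
  unfold ns
  rcases le_total (nm f) (nm (mir r f)) with h | h
  · rw [min_eq_left h]
    exact h1
  · rw [min_eq_right h]
    exact h2

lemma strip_mem {f : Z2} (hf : f ∈ cone q) (h1 : f.1 ≤ -1) (h : -(f.1 : ℝ) ≤ 2 * (c1 * r)) :
    f ∈ strip q 1 (⌊2 * c1 * r⌋₊ + 2) := by
  refine ⟨hf, by push_cast; omega, ?_⟩
  have e2 : 2 * c1 * (r : ℝ) = 2 * (c1 * r) := by ring
  rw [e2]
  have h3 : (-f.1).toNat ≤ ⌊2 * (c1 * r)⌋₊ := Nat.le_floor (by
    have h4 : ((-f.1).toNat : ℝ) = (((-f.1).toNat : ℤ) : ℝ) := by push_cast; rfl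
    rw [h4, Int.toNat_of_nonneg (by omega)]
    push_cast
    exact h)
  push_cast
  omega

/-- explored faces in the support of the second layer function are far from the tip -/
lemma lay_aux {f g : Z2} (ha : 0 < c1 * r) (hne : lw q (c1 * r) g ≠ 0)
    (hrow : g.2 = -1 → ¬ g.1 < 0) (hstr : g ∉ strip q 1 (⌊2 * c1 * r⌋₊ + 2))
    (hfg : f = g ∨ f = mir r g) : 2 * (c1 * r) ≤ nm g ∧ 2 * (c1 * r) ≤ nm (mir r g) := by
  obtain ⟨g1, g2, g3, g4⟩ := lw_supp ha hne
  have g0 : (g.1 : ℝ) < 0 := by linarith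
  have g0' : g.1 < 0 := by exact_mod_cast g0
  have g5 : g.2 ≤ -2 := by
    have : g.2 ≠ -1 := fun h => hrow h g0'
    omega
  have g6 : g ∈ cone q := by
    refine ⟨g5, ?_⟩
    have : ((q : ℤ) * (-1 - g.2) : ℝ) ≤ -(g.1 : ℝ) := by
      push_cast
      linarith
    exact_mod_cast this
  have g7 : 2 * (c1 * r) < -(g.1 : ℝ) := by
    by_contra hc'
    push Not at hc'
    exact hstr (strip_mem g6 (by omega) hc')
  have hr0 : (0 : ℝ) ≤ r := Nat.cast_nonneg r
  have hr1 : (1 : ℝ) ≤ r := by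
    have h0 : r ≠ 0 := by
      rintro rfl
      simp at ha
    have : 1 ≤ r := by omega
    exact_mod_cast this
  constructor
  · rw [← nrm_nm]
    unfold nrm
    exact le_max_of_le_left (g7.le.trans (neg_le_abs _))
  · rw [← nrm_nm]
    unfold nrm mir
    refine le_max_of_le_left (le_trans ?_ (le_abs_self _))
    push_cast
    linarith

lemma lay_zero (hrR : r ≤ R) (hc1 : 0 < c1) (hc : c1 ≤ 1 / 16) (ha : 0 < c1 * r)
    (hT : Tent K c1 n0 r t) (hN : Expl (SB R r) (Tz q r c1 (SB R r)) N) {f : Z2}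
    (hf : f ∉ SB R r \ N) (hne : lw2 q (c1 * r) r f ≠ 0) : t f = 0 := by
  by_cases hfU : f ∈ SB R r
  · have hfN : f ∈ N := by
      by_contra h
      exact hf (Finset.mem_sdiff.2 ⟨hfU, h⟩)
    have hfT := hN.2.1 f hfN
    by_cases h1 : lw q (c1 * r) f = 0
    · have h2 : lw q (c1 * r) (mir r f) ≠ 0 := by
        intro h2
        exact hne (by unfold lw2; rw [h1, h2, add_zero])
      obtain ⟨h3, h4⟩ := lay_aux (f := f) (g := mir r f) ha h2 (fun h h' => by
        rw [H565.mem_SB] at hfU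
        unfold mir at h h'
        simp only at h h'
        exact hfU.2 ⟨h, Or.inr (by omega)⟩) (fun h => hfT (Or.inl (Or.inr h)))
        (Or.inr (H565.mir_mir r f).symm)
      rw [H565.mir_mir] at h4
      exact t_far hT (ns_le h4 h3)
    · obtain ⟨h3, h4⟩ := lay_aux (f := f) (g := f) ha h1 (fun h h' => by
        rw [H565.mem_SB] at hfU
        exact hfU.2 ⟨h, Or.inl h'⟩) (fun h => hfT (Or.inl (Or.inl h))) (Or.inl rfl)
      exact t_far hT (ns_le h3 h4)
  · exact t_off hrR hc1 hc hT hfU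

/-- the three weights cover the outside of the slit box -/
lemma cover (hrR : r ≤ R) (ha : 1 ≤ c1 * r) (har : 16 * (c1 * r) ≤ r) {m : ℕ}
    (hm0 : 1 ≤ m) (hm2 : (m : ℝ) < 4 * (c1 * r) + 1) {f : Z2} (hf : f ∉ SB R r) :
    1 - wz2 q (c1 * r) r f ≤ lw2 q (c1 * r) r f + chi2 m r f := by
  set a := c1 * r with hadef
  have ha0 : 0 < a := by linarith
  obtain ⟨χ0, -, -, -, χ4, -⟩ := exists_chi hm0 r
  have w0 := H757.wz2_nonneg q a r f
  have l0 := lw2_nonneg q a r f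
  have c0 := χ0 f
  have hfar : (m : ℝ) ≤ nrm f → (m : ℝ) ≤ nrm (mir r f) → 1 - wz2 q a r f ≤
      lw2 q a r f + chi2 m r f := by
    intro h1 h2
    rw [χ4 f h1 h2]
    linarith
  rcases off_cases hrR hf with ⟨h1, h2⟩ | ⟨h1, h2⟩ | ⟨h1, h2⟩
  · by_cases h3 : -(f.1 : ℝ) ≤ a
    · rw [H757.wz2_slit ha0 h1 (Or.inl ⟨by omega, h3⟩)]
      linarith
    · push Not at h3
      by_cases h4 : -(f.1 : ℝ) ≤ 7 * a
      · have h5 : lw2 q a r f = 1 := by
          unfold lw2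
          rw [lw_one ha0 h1 h3.le h4, lw_right ha0 (f := mir r f) (by
            unfold mir
            simp only
            omega), add_zero]
        rw [h5]
        linarith
      · push Not at h4
        refine hfar ?_ ?_
        · unfold nrm
          refine le_max_of_le_left (le_trans ?_ (neg_le_abs _))
          linarith
        · unfold nrm mir
          refine le_max_of_le_left (le_trans ?_ (le_abs_self _))
          push_cast
          linarith
  · by_cases h3 : (f.1 : ℝ) - r + 1 ≤ a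
    · rw [H757.wz2_slit ha0 h1 (Or.inr ⟨h2, h3⟩)]
      linarith
    · push Not at h3
      have e1 : -(((mir r f).1 : ℤ) : ℝ) = (f.1 : ℝ) - r + 1 := by
        unfold mir
        push_cast
        ring
      by_cases h4 : (f.1 : ℝ) - r + 1 ≤ 7 * a
      · have h5 : lw2 q a r f = 1 := by
          unfold lw2
          rw [lw_right ha0 (f := f) (by omega), lw_one ha0 (f := mir r f) h1
            (by rw [e1]; exact h3.le) (by rw [e1]; exact h4), zero_add]
        rw [h5]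
        linarith
      · push Not at h4
        refine hfar ?_ ?_
        · unfold nrm
          refine le_max_of_le_left (le_trans ?_ (le_abs_self _))
          linarith
        · unfold nrm
          refine le_max_of_le_left (le_trans ?_ (neg_le_abs _))
          rw [e1]
          linarith
  · have h1' : (r : ℝ) ≤ nm f := by exact_mod_cast h1
    have h2' : (r : ℝ) ≤ nm (mir r f) := by exact_mod_cast h2
    refine hfar ?_ ?_
    · rw [nrm_nm]
      linarith
    · rw [nrm_nm]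
      linarith

lemma chi_zero (hT : Tent K c1 n0 r t) {m : ℕ} (hm0 : 1 ≤ m) (hm1 : 4 * (c1 * r) ≤ m) {f : Z2}
    (hne : chi2 m r f ≠ 0) : t f = 0 := by
  obtain ⟨-, -, χ2, χ3, -, -⟩ := exists_chi hm0 r
  refine t_far hT (ns_le ?_ ?_)
  · by_contra h
    push Not at h
    exact hne (χ2 f (by rw [nrm_nm]; linarith))
  · by_contra h
    push Not at h
    exact hne (χ3 f (by rw [nrm_nm]; linarith))

end geo

/-- **S.FX** -/
theorem stmtFx : StmtFx := by
  intro Y V K κ x y s c1 q hY hV hP hc n0 hn0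
  obtain ⟨hq, hκ, hs, hsy, hsx, hqx, hc1, hcx⟩ := hP
  have hq' : (1 : ℝ) ≤ q := by exact_mod_cast hq
  have hx : s < x := by nlinarith
  obtain ⟨CL, hCL, hL⟩ := H757.layer_sum hq hn0
  obtain ⟨CM, hCM, hM⟩ := Bm_sum Y V q hc1 hc
  refine ⟨Real.sqrt CL + (Real.sqrt 400 + Real.sqrt (16928 * (q : ℝ) ^ 2)) / Y +
    2 * (CM + κ * s ^ 8), by positivity, ?_⟩
  intro A r hA hnr hdiv hrp N hN t v hT hH B0 Bz' hB0 hBz D hD0 hD1 hD2
  have hn' : (1 : ℝ) ≤ n0 := by exact_mod_cast hn0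
  have ha : 1 ≤ c1 * r := by linarith
  have ha0 : 0 < c1 * r := by linarith
  have hr0 : 0 < (r : ℝ) := by
    by_contra h
    have : c1 * (r : ℝ) ≤ 0 := mul_nonpos_of_nonneg_of_nonpos hc1.le (not_lt.1 h)
    linarith
  have hr : 1 ≤ r := by
    have : 0 < r := by exact_mod_cast hr0
    omega
  have har : 16 * (c1 * r) ≤ r := by nlinarith
  have hrR : r ≤ A * r := by nlinarith
  have hm1 : 4 * (c1 * r) ≤ (⌈4 * (c1 * r)⌉₊ : ℝ) := Nat.le_ceil _
  have hm2 : (⌈4 * (c1 * r)⌉₊ : ℝ) < 4 * (c1 * r) + 1 := Nat.ceil_lt_add_one (by linarith)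
  have hm0 : 1 ≤ ⌈4 * (c1 * r)⌉₊ := by
    have : (1 : ℝ) ≤ (⌈4 * (c1 * r)⌉₊ : ℝ) := by linarith
    exact_mod_cast this
  obtain ⟨χ0, -, -, -, -, χ5⟩ := exists_chi hm0 r
  have main := flux_main2 (R := SB (A * r) r \ N) (U := SB (A * r) r) Finset.sdiff_subset
    (E := Be Y V q n0 r κ x y s c1)
    (Bz := Bz') (B0 := B0) (v := v) (w := wz2 q (c1 * r) r) (w' := lw2 q (c1 * r) r)
    (χ := chi2 ⌈4 * (c1 * r)⌉₊ r)
    (ρ := rp Y V q n0 r κ x y s c1) hY hB0 (fun f hf => hdiv f (Finset.sdiff_subset hf))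
    (fun f _ => hrp f) (fun f hf => by rw [dv_dr_lap, hH.2 f hf, neg_zero])
    (harm_nonneg hH hT.nonneg)
    (H757.wz2_nonneg q (c1 * r) r) (fun f hf => H757.wz2_up hf) (fun f hf h => H757.wz2_row hf h)
    (H757.wz2_off hq ha0 hN) (lw2_nonneg q (c1 * r) r) (fun f hf => lw2_up hf)
    (fun f hf h => lw2_row ha0 hf h)
    (fun f hf h => by rw [hH.1 f hf]; exact lay_zero hrR hc1 hc ha0 hT hN hf h) χ0
    (fun f hf => cover hrR ha har hm0 hm2 hf) (fun f _ => H757.wz2_le_one hq (c1 * r) r f)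
    (fun f hf h => by rw [hH.1 f hf]; exact chi_zero hT hm0 hm1 h)
  have e1 : ∑ e ∈ bd (SB (A * r) r \ N), (Y * Bz' e + mdr (wz2 q (c1 * r) r) e) ^ 2 ≤ CL := by
    refine le_trans (le_of_eq ?_) (hL Y c1 r hY hnr (bd (SB (A * r) r \ N)))
    exact Finset.sum_congr rfl fun e he => by rw [hBz e he]
  have e2 := expl_flux (Y := Y) (V := V) (y := y) (n0 := n0) (N := N) hq hκ.le hs hx hsx hr hc1 hc
    ha hrR hN (hM n0 r hn0 hnr (A * r))
  have e3 := χ5 (bd (SB (A * r) r \ N))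
  have e4 := lw2_energy hq ha r (bd (SB (A * r) r \ N))
  have f1 := mul_le_mul (Real.sqrt_le_sqrt hD1) (Real.sqrt_le_sqrt e1) (Real.sqrt_nonneg _)
    (Real.sqrt_nonneg D)
  have f2 := div_le_div_of_nonneg_right (mul_le_mul (Real.sqrt_le_sqrt hD2)
    (add_le_add (Real.sqrt_le_sqrt e3) (Real.sqrt_le_sqrt e4)) (by positivity)
    (Real.sqrt_nonneg D)) hY.le
  refine main.trans ((add_le_add (add_le_add f1 e2) f2).trans ?_)
  have f3 : 0 ≤ 2 * (CM + κ * s ^ 8) * Real.sqrt D := by positivity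
  have f4 : 0 ≤ Real.sqrt CL + (Real.sqrt 400 + Real.sqrt (16928 * (q : ℝ) ^ 2)) / Y := by
    positivity
  have f5 : Real.sqrt D * (Real.sqrt 400 + Real.sqrt (16928 * (q : ℝ) ^ 2)) / Y =
      (Real.sqrt 400 + Real.sqrt (16928 * (q : ℝ) ^ 2)) / Y * Real.sqrt D := by ring
  rw [f5]
  linarith

end Vale.Agent.P159.T1.S.H226
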