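import Vale.Agent.P159.T1.H910.DKit
import Vale.Agent.P159.T1.D.H407.Tilt

/-!
Summation by parts with boundary terms, and the bound for the flux of a nonnegative harmonic
function through a part of the boundary where it vanishes (P159, plan 118).
-/

open Filter Topology

namespace Vale.Agent.P159.T1.S.H226

open Vale.Agent.P159.T1.D

/-- the value of `g` at the left face minus the value at the right face, restricted to faces
outside of `R` -/
def jmp (R : Finset Z2) (g : Z2 → ℝ) (e : Bnd) : ℝ :=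
  (if lf e ∈ R then 0 else g (lf e)) - (if rt e ∈ R then 0 else g (rt e))

lemma fiber_lf {R : Finset Z2} {f : Z2} (hf : f ∈ R) :
    (bd R).filter (fun e => lf e = f) = {(f, false), ((f.1 + 1, f.2), true)} := by
  ext ⟨⟨i, j⟩, d⟩
  simp only [Finset.mem_filter, Finset.mem_insert, Finset.mem_singleton]
  constructor
  · rintro ⟨-, h⟩
    cases d
    · left
      simp only [lf, Bool.false_eq_true, if_false] at h
      rw [h]
    · right
      simp only [lf, if_true] at h
      rw [← h]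
      simp
  · rintro (h | h)
    · have h1 : lf ((i, j), d) = f := by
        rw [h]
        rfl
      exact ⟨H910.mem_bd.2 (Or.inr (by rw [h1]; exact hf)), h1⟩
    · have h1 : lf ((i, j), d) = f := by
        rw [h]
        simp [lf]
      exact ⟨H910.mem_bd.2 (Or.inr (by rw [h1]; exact hf)), h1⟩

lemma fiber_rt {R : Finset Z2} {f : Z2} (hf : f ∈ R) :
    (bd R).filter (fun e => rt e = f) = {((f.1, f.2 + 1), false), (f, true)} := by
  ext ⟨⟨i, j⟩, d⟩
  simp only [Finset.mem_filter, Finset.mem_insert, Finset.mem_singleton]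
  constructor
  · rintro ⟨-, h⟩
    cases d
    · left
      simp only [rt, Bool.false_eq_true, if_false] at h
      rw [← h]
      simp
    · right
      simp only [rt, if_true] at h
      rw [h]
  · rintro (h | h)
    · have h1 : rt ((i, j), d) = f := by
        rw [h]
        simp [rt]
      exact ⟨H910.mem_bd.2 (Or.inl (by rw [h1]; exact hf)), h1⟩
    · have h1 : rt ((i, j), d) = f := by
        rw [h]
        rfl
      exact ⟨H910.mem_bd.2 (Or.inl (by rw [h1]; exact hf)), h1⟩

lemma sum_side (R : Finset Z2) (B : Bnd → ℝ) (g : Z2 → ℝ) (s : Bnd → Z2) :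
    ∑ e ∈ bd R, B e * (if s e ∈ R then g (s e) else 0) =
      ∑ f ∈ R, g f * ∑ e ∈ (bd R).filter (fun e => s e = f), B e := by
  classical
  have h1 : ∀ e ∈ bd R, B e * (if s e ∈ R then g (s e) else 0) =
      ∑ f ∈ R, if s e = f then g f * B e else 0 := by
    intro e _
    rw [Finset.sum_ite_eq]
    split_ifs with h
    · ring
    · ring
  rw [Finset.sum_congr rfl h1, Finset.sum_comm]
  refine Finset.sum_congr rfl fun f _ => ?_
  rw [Finset.mul_sum, Finset.sum_filter]

/-- **summation by parts** on a finite set of faces, with the boundary terms -/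
theorem by_parts (R : Finset Z2) (B : Bnd → ℝ) (g : Z2 → ℝ) :
    ∑ e ∈ bd R, B e * dr g e = ∑ f ∈ R, dv B f * g f + ∑ e ∈ bd R, B e * jmp R g e := by
  classical
  have h1 : ∀ e ∈ bd R, B e * dr g e = B e * (if lf e ∈ R then g (lf e) else 0) -
      B e * (if rt e ∈ R then g (rt e) else 0) + B e * jmp R g e := by
    intro e _
    unfold dr jmp
    split_ifs <;> ring
  rw [Finset.sum_congr rfl h1, Finset.sum_add_distrib, Finset.sum_sub_distrib, sum_side, sum_side,
    ← Finset.sum_sub_distrib]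
  congr 1
  refine Finset.sum_congr rfl fun f hf => ?_
  rw [fiber_lf hf, fiber_rt hf, Finset.sum_pair, Finset.sum_pair]
  · unfold dv
    ring
  · intro h
    have := congrArg Prod.snd h
    simp at this
  · intro h
    have := congrArg Prod.snd h
    simp at this

/-- the flux of `v` through a boundary bond, where `v = 0` outside, has the sign of `v` inside -/
lemma flux_sign {R : Finset Z2} {v χ : Z2 → ℝ} (hv : ∀ f, 0 ≤ v f) (hχ : ∀ f, 0 ≤ χ f)
    {e : Bnd} (he : e ∈ bd R)
    (hl : lf e ∉ R → χ (lf e) ≠ 0 → v (lf e) = 0)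
    (hr : rt e ∉ R → χ (rt e) ≠ 0 → v (rt e) = 0) : dr v e * jmp R χ e ≤ 0 := by
  rw [H910.mem_bd] at he
  unfold jmp dr
  by_cases h1 : lf e ∈ R
  · by_cases h2 : rt e ∈ R
    · rw [if_pos h1, if_pos h2]
      simp
    · rw [if_pos h1, if_neg h2]
      by_cases h3 : χ (rt e) = 0
      · rw [h3]
        simp
      · rw [hr h2 h3]
        have := mul_nonneg (hv (lf e)) (hχ (rt e))
        linarith
  · have h2 : rt e ∈ R := by
      rcases he with h | h
      · exact h
      · exact absurd h h1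
    rw [if_neg h1, if_pos h2]
    by_cases h3 : χ (lf e) = 0
    · rw [h3]
      simp
    · rw [hl h1 h3]
      have := mul_nonneg (hv (rt e)) (hχ (lf e))
      linarith

/-- **far flux.** `v ≥ 0` is harmonic in `R` and vanishes outside of `R` wherever `χ ≠ 0`: its flux
through any part of the boundary, with weight `χ`, is at most `|∇v| |∇χ|`. -/
theorem flux_le {R : Finset Z2} {v χ : Z2 → ℝ} (hv : ∀ f, 0 ≤ v f) (hχ : ∀ f, 0 ≤ χ f)
    (hh : ∀ f ∈ R, dv (dr v) f = 0)
    (hz : ∀ e ∈ bd R, (lf e ∉ R → χ (lf e) ≠ 0 → v (lf e) = 0) ∧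
      (rt e ∉ R → χ (rt e) ≠ 0 → v (rt e) = 0)) {E0 : Finset Bnd} (hE : E0 ⊆ bd R) :
    ∑ e ∈ E0, |dr v e * jmp R χ e| ≤
      Real.sqrt (∑ e ∈ bd R, dr v e ^ 2) * Real.sqrt (∑ e ∈ bd R, dr χ e ^ 2) := by
  have h1 : ∀ e ∈ bd R, |dr v e * jmp R χ e| = -(dr v e * jmp R χ e) := fun e he =>
    abs_of_nonpos (flux_sign hv hχ he (hz e he).1 (hz e he).2)
  have h2 := by_parts R (dr v) χ
  have h3 : ∑ f ∈ R, dv (dr v) f * χ f = 0 :=
    Finset.sum_eq_zero fun f hf => by rw [hh f hf, zero_mul]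
  rw [h3, zero_add] at h2
  calc ∑ e ∈ E0, |dr v e * jmp R χ e| ≤ ∑ e ∈ bd R, |dr v e * jmp R χ e| :=
        Finset.sum_le_sum_of_subset_of_nonneg hE fun _ _ _ => abs_nonneg _
    _ = -∑ e ∈ bd R, dr v e * dr χ e := by
        rw [Finset.sum_congr rfl h1, Finset.sum_neg_distrib, h2]
    _ ≤ |∑ e ∈ bd R, dr v e * dr χ e| := neg_le_abs _
    _ ≤ Real.sqrt (∑ e ∈ bd R, dr v e ^ 2) * Real.sqrt (∑ e ∈ bd R, dr χ e ^ 2) := by
        rw [← Real.sqrt_mul (Finset.sum_nonneg fun _ _ => sq_nonneg _)]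
        exact Real.abs_le_sqrt (Finset.sum_mul_sq_le_sq_mul_sq _ _ _)

/-! ### the flux through the lower boundary -/

/-- indicator of the faces outside of `U` -/
noncomputable def out (U : Finset Z2) (f : Z2) : ℝ := if f ∈ U then 0 else 1

/-- the flux of `B` through the lower part of the boundary of `U`, seen from `R` -/
noncomputable def Flow (R U : Finset Z2) (B : Bnd → ℝ) : ℝ :=
  ∑ e ∈ (bd R).filter (fun e => e.1.2 < 0), B e * jmp R (out U) e

/-- the gradient of `w`, masked on the bonds of the upper part -/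
noncomputable def mdr (w : Z2 → ℝ) (e : Bnd) : ℝ := if e.1.2 < 0 then dr w e else 0

lemma jmp_sub (R : Finset Z2) (g g' : Z2 → ℝ) (e : Bnd) :
    jmp R (fun f => g f - g' f) e = jmp R g e - jmp R g' e := by
  unfold jmp
  split_ifs <;> ring

/-- summation by parts with a layer function `w` -/
theorem layer_parts {R U : Finset Z2} (hR : R ⊆ U) {B : Bnd → ℝ} {w : Z2 → ℝ}
    (hw0 : ∀ f, 0 ≤ f.2 → w f = 0) (hw1 : ∀ f ∈ U, f.2 = -1 → w f = 0) :
    ∑ e ∈ bd R, B e * mdr w e = ∑ f ∈ R, dv B f * w f +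
      ∑ e ∈ (bd R).filter (fun e => e.1.2 < 0), B e * jmp R w e := by
  classical
  have h1 := by_parts R B w
  have h2 : ∀ e ∈ bd R, B e * mdr w e = B e * dr w e -
      (if e.1.2 < 0 then 0 else B e * jmp R w e) := by
    intro e he
    unfold mdr
    by_cases h : e.1.2 < 0
    · rw [if_pos h, if_pos h, sub_zero]
    · rw [if_neg h, if_neg h]
      push Not at h
      have h3 : dr w e = jmp R w e := by
        rcases e with ⟨⟨i, j⟩, d⟩
        simp only at h
        unfold dr jmp
        cases d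
        · have h4 : w (lf ((i, j), false)) = 0 := hw0 _ h
          rw [h4]
          by_cases h5 : rt ((i, j), false) ∈ R
          · have h6 : w (rt ((i, j), false)) = 0 := by
              by_cases h7 : 0 ≤ (rt ((i, j), false)).2
              · exact hw0 _ h7
              · refine hw1 _ (hR h5) ?_
                simp only [rt, Bool.false_eq_true, if_false] at h7 ⊢
                omega
            rw [h6, if_pos h5]
            simp
          · rw [if_neg h5]
            simp
        · have h4 : w (lf ((i, j), true)) = 0 := hw0 _ h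
          have h5 : w (rt ((i, j), true)) = 0 := hw0 _ h
          rw [h4, h5]
          simp
      rw [h3]
      ring
  have h3 : ∑ e ∈ bd R, B e * jmp R w e =
      ∑ e ∈ (bd R).filter (fun e => e.1.2 < 0), B e * jmp R w e +
      ∑ e ∈ bd R, (if e.1.2 < 0 then 0 else B e * jmp R w e) := by
    rw [Finset.sum_filter, ← Finset.sum_add_distrib]
    refine Finset.sum_congr rfl fun e _ => ?_
    split_ifs <;> ring
  rw [Finset.sum_congr rfl h2, Finset.sum_sub_distrib, h1, h3]
  ring

/-- **S.FLUX.** `B₀ = E - (1/Y) ∇v`, `w` = layer function, `Bz` the layer field: the flux through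
the lower boundary is at most `-Y <B₀, Bz>` up to errors. -/
theorem flux_main {R U : Finset Z2} (hR : R ⊆ U) {E Bz : Bnd → ℝ} {v w χ ρ : Z2 → ℝ} {Y : ℝ}
    (hY : 0 < Y) (hdiv : IsDiv R E ρ) (hρ : ∀ f ∈ R, 0 ≤ ρ f)
    (hh : ∀ f ∈ R, dv (dr v) f = 0) (hv : ∀ f, 0 ≤ v f)
    (hw : ∀ f, 0 ≤ w f) (hw0 : ∀ f, 0 ≤ f.2 → w f = 0)
    (hw1 : ∀ f ∈ U, f.2 = -1 → w f = 0) (hwN : ∀ f ∈ U, f ∉ R → w f = 0)
    (hχ : ∀ f, 0 ≤ χ f) (hwχ : ∀ f, f ∉ U → 1 - w f ≤ χ f) (hwle : ∀ f, f ∉ U → w f ≤ 1)
    (hz : ∀ e ∈ bd R, (lf e ∉ R → χ (lf e) ≠ 0 → v (lf e) = 0) ∧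
      (rt e ∉ R → χ (rt e) ≠ 0 → v (rt e) = 0)) :
    Flow R U (fun e => E e - dr v e / Y) + Y * ∑ e ∈ bd R, (E e - dr v e / Y) * Bz e ≤
      Real.sqrt (∑ e ∈ bd R, (E e - dr v e / Y) ^ 2) *
        Real.sqrt (∑ e ∈ bd R, (Y * Bz e + mdr w e) ^ 2) +
      ∑ e ∈ (bd R).filter (fun e => e.1.2 < 0), |E e| * |jmp R (fun f => out U f - w f) e| +
      Real.sqrt (∑ e ∈ bd R, dr v e ^ 2) * Real.sqrt (∑ e ∈ bd R, dr χ e ^ 2) / Y := by
  classical
  set B0 : Bnd → ℝ := fun e => E e - dr v e / Y with hB0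
  have hdv : ∀ f ∈ R, dv B0 f = ρ f := by
    intro f hf
    have h1 : dv B0 f = dv E f - dv (dr v) f / Y := by
      simp only [dv, hB0]
      ring
    rw [h1, hh f hf, isDiv_iff.1 hdiv f hf, zero_div, sub_zero]
  have h1 := layer_parts (B := B0) hR hw0 hw1
  have h2 : 0 ≤ ∑ f ∈ R, dv B0 f * w f :=
    Finset.sum_nonneg fun f hf => by rw [hdv f hf]; exact mul_nonneg (hρ f hf) (hw f)
  -- the flux with weight `w`
  have h3 : ∑ e ∈ (bd R).filter (fun e => e.1.2 < 0), B0 e * jmp R w e +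
      Y * ∑ e ∈ bd R, B0 e * Bz e ≤ Real.sqrt (∑ e ∈ bd R, B0 e ^ 2) *
        Real.sqrt (∑ e ∈ bd R, (Y * Bz e + mdr w e) ^ 2) := by
    have h4 : ∑ e ∈ bd R, B0 e * mdr w e + Y * ∑ e ∈ bd R, B0 e * Bz e =
        ∑ e ∈ bd R, B0 e * (Y * Bz e + mdr w e) := by
      rw [Finset.mul_sum, ← Finset.sum_add_distrib]
      exact Finset.sum_congr rfl fun e _ => by ring
    have h5 : ∑ e ∈ bd R, B0 e * (Y * Bz e + mdr w e) ≤ Real.sqrt (∑ e ∈ bd R, B0 e ^ 2) *
        Real.sqrt (∑ e ∈ bd R, (Y * Bz e + mdr w e) ^ 2) := by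
      rw [← Real.sqrt_mul (Finset.sum_nonneg fun _ _ => sq_nonneg _)]
      exact (le_abs_self _).trans (Real.abs_le_sqrt (Finset.sum_mul_sq_le_sq_mul_sq _ _ _))
    linarith
  -- the rest of the flux
  have h4 : Flow R U B0 = ∑ e ∈ (bd R).filter (fun e => e.1.2 < 0), B0 e * jmp R w e +
      ∑ e ∈ (bd R).filter (fun e => e.1.2 < 0),
        B0 e * jmp R (fun f => out U f - w f) e := by
    unfold Flow
    rw [← Finset.sum_add_distrib]
    refine Finset.sum_congr rfl fun e _ => ?_
    rw [jmp_sub]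
    ring
  have hcmp : ∀ e ∈ bd R, |jmp R (fun f => out U f - w f) e| ≤ |jmp R χ e| := by
    intro e he
    have key : ∀ f, f ∉ R → 0 ≤ out U f - w f ∧ out U f - w f ≤ χ f := by
      intro f hf
      unfold out
      by_cases hU : f ∈ U
      · rw [if_pos hU, hwN f hU hf]
        exact ⟨by simp, by simpa using hχ f⟩
      · rw [if_neg hU]
        exact ⟨by linarith [hwle f hU], hwχ f hU⟩
    rw [H910.mem_bd] at he
    unfold jmp
    by_cases h5 : lf e ∈ R
    · rw [if_pos h5, if_pos h5]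
      by_cases h6 : rt e ∈ R
      · rw [if_pos h6, if_pos h6]
      · rw [if_neg h6, if_neg h6, zero_sub, zero_sub, abs_neg, abs_neg,
          abs_of_nonneg (key _ h6).1, abs_of_nonneg (hχ _)]
        exact (key _ h6).2
    · have h6 : rt e ∈ R := by
        rcases he with h | h
        · exact h
        · exact absurd h h5
      rw [if_neg h5, if_neg h5, if_pos h6, if_pos h6, sub_zero, sub_zero,
        abs_of_nonneg (key _ h5).1, abs_of_nonneg (hχ _)]
      exact (key _ h5).2
  have h5 : ∑ e ∈ (bd R).filter (fun e => e.1.2 < 0), B0 e * jmp R (fun f => out U f - w f) e ≤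
      ∑ e ∈ (bd R).filter (fun e => e.1.2 < 0), |E e| * |jmp R (fun f => out U f - w f) e| +
      (∑ e ∈ (bd R).filter (fun e => e.1.2 < 0), |dr v e * jmp R χ e|) / Y := by
    rw [Finset.sum_div, ← Finset.sum_add_distrib]
    refine Finset.sum_le_sum fun e he => ?_
    have he' := (Finset.mem_filter.1 he).1
    calc B0 e * jmp R (fun f => out U f - w f) e ≤
          |B0 e * jmp R (fun f => out U f - w f) e| := le_abs_self _
      _ = |B0 e| * |jmp R (fun f => out U f - w f) e| := abs_mul _ _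
      _ ≤ (|E e| + |dr v e| / Y) * |jmp R (fun f => out U f - w f) e| := by
          refine mul_le_mul_of_nonneg_right ?_ (abs_nonneg _)
          simp only [hB0]
          refine (abs_sub _ _).trans ?_
          rw [abs_div, abs_of_pos hY]
      _ = |E e| * |jmp R (fun f => out U f - w f) e| +
          |dr v e| * |jmp R (fun f => out U f - w f) e| / Y := by ring
      _ ≤ |E e| * |jmp R (fun f => out U f - w f) e| + |dr v e * jmp R χ e| / Y := by
          rw [abs_mul (dr v e) (jmp R χ e)]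
          exact add_le_add le_rfl (div_le_div_of_nonneg_right
            (mul_le_mul_of_nonneg_left (hcmp e he') (abs_nonneg _)) hY.le)
  have h6 := flux_le hv hχ hh hz (Finset.filter_subset (fun e : Bnd => e.1.2 < 0) (bd R))
  have h7 : (∑ e ∈ (bd R).filter (fun e => e.1.2 < 0), |dr v e * jmp R χ e|) / Y ≤
      Real.sqrt (∑ e ∈ bd R, dr v e ^ 2) * Real.sqrt (∑ e ∈ bd R, dr χ e ^ 2) / Y := by
    gcongr
  change Flow R U B0 + Y * ∑ e ∈ bd R, B0 e * Bz e ≤ _
  rw [h4]
  linarith

end Vale.Agent.P159.T1.S.H226
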