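import Vale.Agent.P159.T1.S.Stmts
import Vale.Agent.P159.T1.S.H226.Flux

/-!
The flux inequality in the objects of `S/Stmts.lean` (P159, plan 118).
-/

open Filter Topology

namespace Vale.Agent.P159.T1.S

open Vale.Agent.P159.T1.D

/-- S.FX: the flux of `B₀ = Be - dr v / Y` through the lower boundary; `D` bounds the energies -/
def StmtFx : Prop :=
  ∀ (Y V K κ x y s c1 : ℝ) (q : ℕ), 0 < Y → 1 < V → Par q κ x y s c1 → c1 ≤ 1 / 16 →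
    ∀ n0 : ℕ, 1 ≤ n0 → ∃ C : ℝ, 0 ≤ C ∧ ∀ (A r : ℕ), 1 ≤ A → (n0 : ℝ) ≤ c1 * r →
      IsDiv (SB (A * r) r) (Be Y V q n0 r κ x y s c1) (rp Y V q n0 r κ x y s c1) →
      (∀ f, 0 ≤ rp Y V q n0 r κ x y s c1 f) →
      ∀ N : Finset Z2, Expl (SB (A * r) r) (Tz q r c1 (SB (A * r) r)) N →
      ∀ t v : Z2 → ℝ, Tent K c1 n0 r t → Harm (SB (A * r) r \ N) t v →
      ∀ B0 Bz' : Bnd → ℝ,
        (∀ e ∈ bd (SB (A * r) r \ N), B0 e = Be Y V q n0 r κ x y s c1 e - dr v e / Y) →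
        (∀ e ∈ bd (SB (A * r) r \ N), Bz' e = Bz Y q n0 r c1 e) →
      ∀ D : ℝ, 0 ≤ D → ∑ e ∈ bd (SB (A * r) r \ N), B0 e ^ 2 ≤ D →
        ∑ e ∈ bd (SB (A * r) r \ N), dr v e ^ 2 ≤ D →
        H226.Flow (SB (A * r) r \ N) (SB (A * r) r) B0 +
          Y * ∑ e ∈ bd (SB (A * r) r \ N), B0 e * Bz' e ≤ C * Real.sqrt D + C

end Vale.Agent.P159.T1.S
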