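import Vale.Agent.P159.T1.S.H226.Flux

/-!
A cut-off function which is one outside of two windows around the tips, with bounded energy.
-/

open Filter Topology

namespace Vale.Agent.P159.T1.S.H226

open Vale.Agent.P159.T1.D

/-- sup norm of a face -/
noncomputable def nrm (f : Z2) : ℝ := max |(f.1 : ℝ)| |(f.2 : ℝ)|

/-- the cut-off around the left tip -/
noncomputable def chi0 (m : ℕ) (f : Z2) : ℝ := max 0 (min 1 (2 * nrm f / m - 1))

lemma chi0_nonneg (m : ℕ) (f : Z2) : 0 ≤ chi0 m f := le_max_left _ _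

lemma chi0_le (m : ℕ) (f : Z2) : chi0 m f ≤ 1 := max_le zero_le_one (min_le_left _ _)

lemma chi0_zero {m : ℕ} (hm : 1 ≤ m) {f : Z2} (h : 2 * nrm f ≤ m) : chi0 m f = 0 := by
  have hm0 : (0 : ℝ) < m := by exact_mod_cast hm
  unfold chi0
  refine max_eq_left ((min_le_right _ _).trans ?_)
  have : 2 * nrm f / m ≤ 1 := (div_le_one hm0).2 h
  linarith

lemma chi0_one {m : ℕ} (hm : 1 ≤ m) {f : Z2} (h : (m : ℝ) ≤ nrm f) : chi0 m f = 1 := by
  have hm0 : (0 : ℝ) < m := by exact_mod_cast hm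
  unfold chi0
  have h1 : 1 ≤ nrm f / m := (one_le_div hm0).2 h
  have h2 : (1 : ℝ) ≤ 2 * nrm f / m - 1 := by
    rw [mul_div_assoc]
    linarith
  rw [min_eq_left h2]
  exact max_eq_right zero_le_one

lemma nrm_lip (f g : Z2) (h1 : |((f.1 : ℝ) - g.1)| ≤ 1) (h2 : |((f.2 : ℝ) - g.2)| ≤ 1) :
    |nrm f - nrm g| ≤ 1 := by
  unfold nrm
  have a1 := (abs_sub_abs_le_abs_sub (f.1 : ℝ) g.1).trans h1
  have a2 := (abs_sub_abs_le_abs_sub (f.2 : ℝ) g.2).trans h2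
  have b1 := (abs_sub_abs_le_abs_sub (g.1 : ℝ) f.1).trans ((abs_sub_comm _ _).trans_le h1)
  have b2 := (abs_sub_abs_le_abs_sub (g.2 : ℝ) f.2).trans ((abs_sub_comm _ _).trans_le h2)
  rw [abs_le]
  constructor
  · have : max |(g.1 : ℝ)| |(g.2 : ℝ)| ≤ max |(f.1 : ℝ)| |(f.2 : ℝ)| + 1 :=
      max_le (by linarith [le_max_left |(f.1 : ℝ)| |(f.2 : ℝ)|])
        (by linarith [le_max_right |(f.1 : ℝ)| |(f.2 : ℝ)|])
    linarith
  · have : max |(f.1 : ℝ)| |(f.2 : ℝ)| ≤ max |(g.1 : ℝ)| |(g.2 : ℝ)| + 1 :=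
      max_le (by linarith [le_max_left |(g.1 : ℝ)| |(g.2 : ℝ)|])
        (by linarith [le_max_right |(g.1 : ℝ)| |(g.2 : ℝ)|])
    linarith

lemma clamp_lip (a b : ℝ) : |max 0 (min 1 a) - max 0 (min 1 b)| ≤ |a - b| := by
  refine (abs_max_sub_max_le_max _ _ _ _).trans ?_
  rw [sub_self, abs_zero]
  refine max_le (abs_nonneg _) ?_
  refine (abs_min_sub_min_le_max _ _ _ _).trans ?_
  rw [sub_self, abs_zero]
  exact max_le (abs_nonneg _) le_rfl

lemma dr_chi0_le {m : ℕ} (hm : 1 ≤ m) (e : Bnd) : |dr (chi0 m) e| ≤ 2 / m := by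
  have hm0 : (0 : ℝ) < m := by exact_mod_cast hm
  unfold dr chi0
  refine (clamp_lip _ _).trans ?_
  have h1 : |nrm (lf e) - nrm (rt e)| ≤ 1 := by
    refine nrm_lip _ _ ?_ ?_
    · rcases e with ⟨P, d⟩
      cases d <;> simp [lf, rt]
    · rcases e with ⟨P, d⟩
      cases d <;> simp [lf, rt]
  have h2 : 2 * nrm (lf e) / m - 1 - (2 * nrm (rt e) / m - 1) =
      2 / m * (nrm (lf e) - nrm (rt e)) := by ring
  rw [h2, abs_mul, abs_of_pos (by positivity)]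
  exact mul_le_of_le_one_right (by positivity) h1

lemma dr_chi0_supp {m : ℕ} (hm : 1 ≤ m) {e : Bnd} (h : dr (chi0 m) e ≠ 0) :
    e.1.1 ∈ Finset.Icc (-((m : ℤ) + 1)) (m + 1) ∧ e.1.2 ∈ Finset.Icc (-((m : ℤ) + 1)) (m + 1) := by
  have h1 : nrm (lf e) < m ∨ nrm (rt e) < m := by
    by_contra h2
    push Not at h2
    exact h (by unfold dr; rw [chi0_one hm h2.1, chi0_one hm h2.2, sub_self])
  have key : ∀ g : Z2, nrm g < m → |g.1 - e.1.1| ≤ 1 → |g.2 - e.1.2| ≤ 1 →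
      e.1.1 ∈ Finset.Icc (-((m : ℤ) + 1)) (m + 1) ∧
        e.1.2 ∈ Finset.Icc (-((m : ℤ) + 1)) (m + 1) := by
    intro g hg h3 h4
    unfold nrm at hg
    have h5 : |(g.1 : ℝ)| < m := (le_max_left _ _).trans_lt hg
    have h6 : |(g.2 : ℝ)| < m := (le_max_right _ _).trans_lt hg
    have h5' : |g.1| < (m : ℤ) := by exact_mod_cast h5
    have h6' : |g.2| < (m : ℤ) := by exact_mod_cast h6
    rw [abs_lt] at h5' h6'
    rw [abs_le] at h3 h4
    simp only [Finset.mem_Icc]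
    omega
  rcases h1 with h1 | h1
  · refine key _ h1 ?_ ?_
    · rcases e with ⟨P, d⟩
      cases d <;> simp [lf]
    · rcases e with ⟨P, d⟩
      cases d <;> simp [lf]
  · refine key _ h1 ?_ ?_
    · rcases e with ⟨P, d⟩
      cases d <;> simp [rt]
    · rcases e with ⟨P, d⟩
      cases d <;> simp [rt]

lemma chi0_energy {m : ℕ} (hm : 1 ≤ m) (S : Finset Bnd) :
    ∑ e ∈ S, dr (chi0 m) e ^ 2 ≤ 200 := by
  classical
  have hm0 : (0 : ℝ) < m := by exact_mod_cast hm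
  have hm1 : (1 : ℝ) ≤ m := by exact_mod_cast hm
  set T : Finset Bnd := (Finset.Icc (-((m : ℤ) + 1)) (m + 1) ×ˢ
    Finset.Icc (-((m : ℤ) + 1)) (m + 1)) ×ˢ (Finset.univ : Finset Bool) with hT
  have h1 : ∑ e ∈ S, dr (chi0 m) e ^ 2 ≤ ∑ e ∈ T, dr (chi0 m) e ^ 2 := by
    have h2 : ∑ e ∈ S, dr (chi0 m) e ^ 2 = ∑ e ∈ S.filter (fun e => e ∈ T),
        dr (chi0 m) e ^ 2 := by
      rw [Finset.sum_filter]
      refine Finset.sum_congr rfl fun e _ => ?_
      split_ifs with h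
      · rfl
      · by_contra h0
        have h3 : dr (chi0 m) e ≠ 0 := fun h3 => h0 (by rw [h3]; ring)
        obtain ⟨h4, h5⟩ := dr_chi0_supp hm h3
        exact h (Finset.mem_product.2 ⟨Finset.mem_product.2 ⟨h4, h5⟩, Finset.mem_univ _⟩)
    rw [h2]
    exact Finset.sum_le_sum_of_subset_of_nonneg
      (fun e he => (Finset.mem_filter.1 he).2) fun _ _ _ => sq_nonneg _
  have h2 : ∑ e ∈ T, dr (chi0 m) e ^ 2 ≤ ∑ e ∈ T, (2 / (m : ℝ)) ^ 2 := by
    refine Finset.sum_le_sum fun e _ => ?_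
    rw [← sq_abs]
    exact pow_le_pow_left₀ (abs_nonneg _) (dr_chi0_le hm e) 2
  have h3 : (T.card : ℝ) = 2 * (2 * m + 3) ^ 2 := by
    rw [hT, Finset.card_product, Finset.card_product, Int.card_Icc, Finset.card_univ,
      Fintype.card_bool]
    have h4 : ((m : ℤ) + 1 + 1 - (-((m : ℤ) + 1))).toNat = 2 * m + 3 := by omega
    rw [h4]
    push_cast
    ring
  rw [Finset.sum_const, nsmul_eq_mul, h3] at h2
  refine (h1.trans h2).trans ?_
  rw [div_pow, ← mul_div_assoc, div_le_iff₀ (by positivity)]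
  nlinarith

/-- the cut-off around both tips -/
noncomputable def chi2 (m r : ℕ) (f : Z2) : ℝ := min (chi0 m f) (chi0 m (mir r f))

/-- reflection of bonds -/
def mirB (r : ℕ) (e : Bnd) : Bnd := if e.2 then (((r : ℤ) - e.1.1, e.1.2), true) else
  (((r : ℤ) - 1 - e.1.1, e.1.2), false)

lemma mirB_inj (r : ℕ) : Function.Injective (mirB r) := by
  rintro ⟨⟨i, j⟩, d⟩ ⟨⟨i', j'⟩, d'⟩ h
  cases d <;> cases d' <;>
    simp only [mirB, if_true, Bool.false_eq_true, if_false, Prod.mk.injEq] at h ⊢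
  · obtain ⟨⟨h1, h2⟩, -⟩ := h
    exact ⟨⟨by omega, h2⟩, trivial⟩
  · exact absurd h.2 (by simp)
  · exact absurd h.2 (by simp)
  · obtain ⟨⟨h1, h2⟩, -⟩ := h
    exact ⟨⟨by omega, h2⟩, trivial⟩

lemma dr_mir_abs (r : ℕ) (g : Z2 → ℝ) (e : Bnd) :
    |dr (fun f => g (mir r f)) e| = |dr g (mirB r e)| := by
  rcases e with ⟨⟨i, j⟩, d⟩
  cases d
  · simp only [dr, lf, rt, mirB, Bool.false_eq_true, if_false, mir]
  · simp only [dr, lf, rt, mirB, if_true, mir]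
    rw [abs_sub_comm]
    have e1 : (r : ℤ) - 1 - (i - 1) = r - i := by ring
    have e2 : (r : ℤ) - 1 - i = r - i - 1 := by ring
    rw [e1, e2]

lemma energy_mir (r : ℕ) (g : Z2 → ℝ) {C : ℝ} (h : ∀ S : Finset Bnd, ∑ e ∈ S, dr g e ^ 2 ≤ C)
    (S : Finset Bnd) : ∑ e ∈ S, dr (fun f => g (mir r f)) e ^ 2 ≤ C := by
  classical
  have h1 : ∑ e ∈ S, dr (fun f => g (mir r f)) e ^ 2 = ∑ e ∈ S.image (mirB r), dr g e ^ 2 := by
    rw [Finset.sum_image fun a _ b _ hab => mirB_inj r hab]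
    refine Finset.sum_congr rfl fun e _ => ?_
    rw [← sq_abs, dr_mir_abs, sq_abs]
  rw [h1]
  exact h _

theorem exists_chi {m : ℕ} (hm : 1 ≤ m) (r : ℕ) :
    (∀ f, 0 ≤ chi2 m r f) ∧ (∀ f, chi2 m r f ≤ 1) ∧
      (∀ f, 2 * nrm f ≤ m → chi2 m r f = 0) ∧
      (∀ f, 2 * nrm (mir r f) ≤ m → chi2 m r f = 0) ∧
      (∀ f, (m : ℝ) ≤ nrm f → (m : ℝ) ≤ nrm (mir r f) → chi2 m r f = 1) ∧
      ∀ S : Finset Bnd, ∑ e ∈ S, dr (chi2 m r) e ^ 2 ≤ 400 := by
  refine ⟨fun f => le_min (chi0_nonneg _ _) (chi0_nonneg _ _),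
    fun f => (min_le_left _ _).trans (chi0_le _ _), fun f h => ?_, fun f h => ?_,
    fun f h h' => ?_, fun S => ?_⟩
  · exact le_antisymm ((min_le_left _ _).trans (chi0_zero hm h).le)
      (le_min (chi0_nonneg _ _) (chi0_nonneg _ _))
  · exact le_antisymm ((min_le_right _ _).trans (chi0_zero hm h).le)
      (le_min (chi0_nonneg _ _) (chi0_nonneg _ _))
  · unfold chi2
    rw [chi0_one hm h, chi0_one hm h', min_self]
  · have h1 : ∀ e ∈ S, dr (chi2 m r) e ^ 2 ≤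
        dr (chi0 m) e ^ 2 + dr (fun f => chi0 m (mir r f)) e ^ 2 := by
      intro e _
      have h2 : |dr (chi2 m r) e| ≤ max |dr (chi0 m) e| |dr (fun f => chi0 m (mir r f)) e| := by
        unfold dr chi2
        exact abs_min_sub_min_le_max _ _ _ _
      rw [← sq_abs (dr (chi2 m r) e), ← sq_abs (dr (chi0 m) e),
        ← sq_abs (dr (fun f => chi0 m (mir r f)) e)]
      rcases max_cases |dr (chi0 m) e| |dr (fun f => chi0 m (mir r f)) e| with ⟨h3, -⟩ | ⟨h3, -⟩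
      · rw [h3] at h2
        have := pow_le_pow_left₀ (abs_nonneg _) h2 2
        nlinarith [sq_nonneg |dr (fun f => chi0 m (mir r f)) e|]
      · rw [h3] at h2
        have := pow_le_pow_left₀ (abs_nonneg _) h2 2
        nlinarith [sq_nonneg |dr (chi0 m) e|]
    refine (Finset.sum_le_sum h1).trans ?_
    rw [Finset.sum_add_distrib]
    have h2 := chi0_energy hm S
    have h3 := energy_mir r (chi0 m) (fun S => chi0_energy hm S) S
    linarith

end Vale.Agent.P159.T1.S.H226
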