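import Vale.Agent.P159.T1.S.H226.FxDefs
import Vale.Agent.P159.T1.S.H757.Layer

/-!
The explicit field on the lower boundary of the slit box (P159, plan 118).
-/

open Filter Topology

namespace Vale.Agent.P159.T1.S.H226

open Vale.Agent.P159.T1.D Vale.Agent.P159.T1.S
open Vale.Agent.P159.T1.H565 (Kf mB mb Bb)

/-! ### profiles -/

lemma clp_mono (a A : ℝ) : Monotone (clp a A) := fun x y h => by
  unfold clp
  exact max_le_max le_rfl (min_le_min h le_rfl)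

lemma clp_const {a A x : ℝ} (h : Real.log A ≤ x) : clp a A x = max (Real.log a) (Real.log A) := by
  unfold clp
  rw [min_eq_right h]

lemma tau_ge {P : Z2} {s : ℝ} (hs : 0 < s) (h : s ^ 2 ≤ (P.1 : ℝ) ^ 2 + (P.2 : ℝ) ^ 2) :
    Real.log s ≤ D.tau P := by
  unfold D.tau
  exact Real.log_le_log hs (Real.le_sqrt_of_sq_le h)

/-- the bonds below the left slit -/
def lb (i : ℕ) : Bnd := ((-(i : ℤ), -1), false)

lemma tau_row_mono : Monotone fun k : ℕ => D.tau (-(k : ℤ), -1) := by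
  intro k l h
  unfold D.tau
  simp only
  have hk : (k : ℝ) ≤ l := by exact_mod_cast h
  refine Real.log_le_log (Real.sqrt_pos.2 (by push_cast; positivity)) (Real.sqrt_le_sqrt ?_)
  push_cast
  nlinarith [(Nat.cast_nonneg k : (0 : ℝ) ≤ k)]

lemma gs_lb {Γ : ℝ → ℝ} (hΓ : Monotone Γ) (i : ℕ) :
    |gs (fun P => Γ (D.tau P)) (lb (i + 1))| =
      Γ (D.tau (-((i + 1 : ℕ) : ℤ), -1)) - Γ (D.tau (-(i : ℤ), -1)) := by
  have h1 : gs (fun P => Γ (D.tau P)) (lb (i + 1)) =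
      Γ (D.tau (-(i : ℤ), -1)) - Γ (D.tau (-((i + 1 : ℕ) : ℤ), -1)) := by
    unfold gs lb bt bs
    simp only [Bool.false_eq_true, if_false]
    have e1 : -((i + 1 : ℕ) : ℤ) + 1 = -(i : ℤ) := by
      push_cast
      ring
    rw [e1]
  rw [h1, abs_sub_comm, abs_of_nonneg]
  exact sub_nonneg.2 (hΓ (tau_row_mono (Nat.le_succ i)))

lemma gs_sum {Γ : ℝ → ℝ} (hΓ : Monotone Γ) (i0 M : ℕ) :
    ∑ k ∈ Finset.range M, |gs (fun P => Γ (D.tau P)) (lb (i0 + k + 1))| =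
      Γ (D.tau (-((i0 + M : ℕ) : ℤ), -1)) - Γ (D.tau (-(i0 : ℤ), -1)) := by
  rw [Finset.sum_congr rfl fun k _ => gs_lb hΓ (i0 + k)]
  have h := Finset.sum_range_sub (fun k : ℕ => Γ (D.tau (-((i0 + k : ℕ) : ℤ), -1))) M
  have e1 : ∀ k : ℕ, i0 + (k + 1) = i0 + k + 1 := fun k => by ring
  simp only [e1, Nat.add_zero] at h
  exact h

lemma clp_sum {n0 : ℕ} (hn : 1 ≤ n0) {A a : ℝ} (ha : 1 ≤ a) (hA : a ≤ A) (hnA : (n0 : ℝ) ≤ A)
    (M : ℕ) :
    ∑ k ∈ Finset.range M, |gs (fun P => clp n0 A (D.tau P)) (lb (⌊a⌋₊ + k + 1))| ≤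
      Real.log (2 * A / a) := by
  have hn' : (1 : ℝ) ≤ n0 := by exact_mod_cast hn
  have ha0 : 0 < a := by linarith
  have hA0 : 0 < A := by linarith
  have hlog : Real.log n0 ≤ Real.log A := Real.log_le_log (by linarith) hnA
  rw [gs_sum (clp_mono _ _)]
  have h1 : clp n0 A (D.tau (-((⌊a⌋₊ + M : ℕ) : ℤ), -1)) ≤ Real.log A := by
    unfold clp
    exact max_le hlog (min_le_right _ _)
  have h2 : Real.log (a / 2) ≤ clp n0 A (D.tau (-(⌊a⌋₊ : ℤ), -1)) := by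
    unfold clp
    refine le_max_of_le_right (le_min ?_ ?_)
    · refine tau_ge (by positivity) ?_
      have h3 : a / 2 ≤ (⌊a⌋₊ : ℝ) := by
        have h4 : a < (⌊a⌋₊ : ℝ) + 1 := Nat.lt_floor_add_one a
        have h5 : (1 : ℝ) ≤ (⌊a⌋₊ : ℝ) := by
          have : 1 ≤ ⌊a⌋₊ := (Nat.one_le_floor_iff a).2 ha
          exact_mod_cast this
        linarith
      have h4 : (a / 2) ^ 2 ≤ (⌊a⌋₊ : ℝ) ^ 2 := pow_le_pow_left₀ (by positivity) h3 2
      push_cast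
      nlinarith
    · exact Real.log_le_log (by positivity) (by linarith)
  have h3 : Real.log (2 * A / a) = Real.log A - Real.log (a / 2) := by
    rw [← Real.log_div (by positivity) (by positivity)]
    congr 1
    field_simp
  linarith

/-! ### the main field -/

lemma cf_abs (Y V : ℝ) (q : ℕ) (e : Bnd) :
    |cf Y V q e| ≤ |V / (Y * ang q)| + |V / (Y * (2 * Real.pi - ang q))| := by
  unfold cf
  split_ifs
  · linarith [abs_nonneg (V / (Y * (2 * Real.pi - ang q)))]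
  · rw [abs_neg]
    linarith [abs_nonneg (V / (Y * ang q))]

lemma gs_far {n0 : ℕ} {A : ℝ} (hA : 0 < A) {e : Bnd}
    (h1 : A ^ 2 ≤ ((bs e).1 : ℝ) ^ 2 + ((bs e).2 : ℝ) ^ 2)
    (h2 : A ^ 2 ≤ ((bt e).1 : ℝ) ^ 2 + ((bt e).2 : ℝ) ^ 2) :
    gs (fun P => clp n0 A (D.tau P)) e = 0 := by
  unfold gs
  simp only
  rw [clp_const (tau_ge hA h1), clp_const (tau_ge hA h2), sub_self]

lemma Bm_abs (Y V : ℝ) (q n0 r : ℕ) (c1 : ℝ) (e : Bnd) :
    |Bm Y V q n0 r c1 e| ≤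
      (|(V - aq q) / (Y * ang q)| + |(V - aq q) / (Y * (2 * Real.pi - ang q))| +
        (|V / (Y * ang q)| + |V / (Y * (2 * Real.pi - ang q))|)) *
        (|gs (fun P => clp n0 (c1 * r) (D.tau P)) e| +
          |gs (fun P => clp n0 ((r : ℝ) / 4) (D.tau P)) e|) := by
  have h1 := cf_abs Y (V - aq q) q e
  have h2 := cf_abs Y V q e
  set c := |(V - aq q) / (Y * ang q)| + |(V - aq q) / (Y * (2 * Real.pi - ang q))| with hc
  set c' := |V / (Y * ang q)| + |V / (Y * (2 * Real.pi - ang q))| with hc'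
  have hc0 : 0 ≤ c := by positivity
  have hc0' : 0 ≤ c' := by positivity
  have h3 : gs (fun P => clp n0 ((r : ℝ) / 4) (D.tau P) - clp n0 (c1 * r) (D.tau P)) e =
      gs (fun P => clp n0 ((r : ℝ) / 4) (D.tau P)) e - gs (fun P => clp n0 (c1 * r) (D.tau P)) e := by
    unfold gs
    ring
  unfold Bm Bf
  rw [h3]
  set x := gs (fun P => clp n0 (c1 * r) (D.tau P)) e
  set y := gs (fun P => clp n0 ((r : ℝ) / 4) (D.tau P)) e
  calc |cf Y (V - aq q) q e * x + cf Y V q e * (y - x)|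
      ≤ |cf Y (V - aq q) q e * x| + |cf Y V q e * (y - x)| := abs_add_le _ _
    _ = |cf Y (V - aq q) q e| * |x| + |cf Y V q e| * |y - x| := by rw [abs_mul, abs_mul]
    _ ≤ c * |x| + c' * (|y| + |x|) := by
        gcongr
        exact abs_sub _ _
    _ ≤ (c + c') * (|x| + |y|) := by
        nlinarith [abs_nonneg x, abs_nonneg y, mul_nonneg hc0 (abs_nonneg y)]

lemma Bm_far {Y V : ℝ} {q n0 r : ℕ} {c1 : ℝ} (hr : 1 ≤ r) (hc1 : 0 < c1) (hc : c1 ≤ 1 / 4) {e : Bnd}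
    (h1 : (r : ℝ) ^ 2 ≤ ((bs e).1 : ℝ) ^ 2 + ((bs e).2 : ℝ) ^ 2)
    (h2 : (r : ℝ) ^ 2 ≤ ((bt e).1 : ℝ) ^ 2 + ((bt e).2 : ℝ) ^ 2) :
    Bm Y V q n0 r c1 e = 0 := by
  have hr' : (1 : ℝ) ≤ r := by exact_mod_cast hr
  have h3 : (c1 * r) ^ 2 ≤ (r : ℝ) ^ 2 := pow_le_pow_left₀ (by positivity) (by nlinarith) 2
  have h4 : ((r : ℝ) / 4) ^ 2 ≤ (r : ℝ) ^ 2 := pow_le_pow_left₀ (by positivity) (by linarith) 2
  have h5 := Bm_abs Y V q n0 r c1 e
  rw [gs_far (by positivity) (h3.trans h1) (h3.trans h2),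
    gs_far (by positivity) (h4.trans h1) (h4.trans h2), abs_zero, add_zero, mul_zero] at h5
  exact abs_nonpos_iff.1 h5

/-- the main field on the lower lip -/
lemma Bm_sum (Y V : ℝ) (q : ℕ) {c1 : ℝ} (hc1 : 0 < c1) (hc : c1 ≤ 1 / 16) :
    ∃ C : ℝ, 0 ≤ C ∧ ∀ n0 r : ℕ, 1 ≤ n0 → (n0 : ℝ) ≤ c1 * r → ∀ M : ℕ,
      ∑ k ∈ Finset.range M, |Bm Y V q n0 r c1 (lb (⌊c1 * r⌋₊ + k + 1))| ≤ C := by
  set c := |(V - aq q) / (Y * ang q)| + |(V - aq q) / (Y * (2 * Real.pi - ang q))| +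
        (|V / (Y * ang q)| + |V / (Y * (2 * Real.pi - ang q))|) with hcdef
  have hc0 : 0 ≤ c := by positivity
  have hl2 : 0 ≤ Real.log 2 := Real.log_nonneg (by norm_num)
  have hlc : 0 ≤ Real.log (1 / (2 * c1)) := by
    refine Real.log_nonneg ?_
    rw [le_div_iff₀ (by positivity)]
    linarith
  refine ⟨c * (Real.log 2 + Real.log (1 / (2 * c1))), by positivity, fun n0 r hn hnr M => ?_⟩
  have hn' : (1 : ℝ) ≤ n0 := by exact_mod_cast hn
  have ha : 1 ≤ c1 * r := by linarith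
  have hr0 : 0 < (r : ℝ) := by
    by_contra h
    have : c1 * (r : ℝ) ≤ 0 := mul_nonpos_of_nonneg_of_nonpos hc1.le (not_lt.1 h)
    linarith
  have h1 : ∀ k ∈ Finset.range M, |Bm Y V q n0 r c1 (lb (⌊c1 * r⌋₊ + k + 1))| ≤
      c * (|gs (fun P => clp n0 (c1 * r) (D.tau P)) (lb (⌊c1 * r⌋₊ + k + 1))| +
        |gs (fun P => clp n0 ((r : ℝ) / 4) (D.tau P)) (lb (⌊c1 * r⌋₊ + k + 1))|) :=
    fun k _ => Bm_abs Y V q n0 r c1 _
  refine (Finset.sum_le_sum h1).trans ?_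
  rw [← Finset.mul_sum, Finset.sum_add_distrib]
  refine mul_le_mul_of_nonneg_left (add_le_add ?_ ?_) hc0
  · refine (clp_sum hn ha le_rfl hnr M).trans (le_of_eq ?_)
    congr 1
    field_simp
  · refine (clp_sum hn ha (by nlinarith) (by nlinarith) M).trans (le_of_eq ?_)
    congr 1
    field_simp
    norm_num

/-! ### the bumps -/

lemma Bb_left {r : ℕ} {κ x y s : ℝ} (hr : 1 ≤ r) (hκ : 0 ≤ κ) (hs : 0 < s) (hx : s + x < 1 / 4)
    (M i0 : ℕ) : ∑ k ∈ Finset.range M, |Bb r κ x y s (lb (i0 + k + 1))| ≤ κ * s ^ 8 := by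
  have hr' : (1 : ℝ) ≤ r := by exact_mod_cast hr
  have h1 : ∀ k ∈ Finset.range M, |Bb r κ x y s (lb (i0 + k + 1))| ≤
      if k < r then κ * s ^ 8 / r else 0 := by
    intro k _
    have e1 : Bb r κ x y s (lb (i0 + k + 1)) = -∑ j ∈ Finset.Ico (-(r : ℤ)) (-1),
        bump r κ x y s (-((i0 + k + 1 : ℕ) : ℤ), j) := by
      unfold Bb lb
      rw [if_pos ⟨rfl, le_rfl⟩]
    rw [e1, abs_neg, abs_of_nonneg (Finset.sum_nonneg fun _ _ => H565.bump_nonneg hκ _)]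
    by_cases hk : k < r
    · rw [if_pos hk]
      calc ∑ j ∈ Finset.Ico (-(r : ℤ)) (-1), bump r κ x y s (-((i0 + k + 1 : ℕ) : ℤ), j)
          ≤ ∑ j ∈ Finset.Ico (-(r : ℤ)) (-1), κ * s ^ 8 / (r : ℝ) ^ 2 :=
            Finset.sum_le_sum fun _ _ => H565.bump_le hκ _
        _ ≤ r * (κ * s ^ 8 / (r : ℝ) ^ 2) := by
            rw [Finset.sum_const, nsmul_eq_mul, Int.card_Ico]
            refine mul_le_mul_of_nonneg_right ?_ (by positivity)
            have : (-1 - -(r : ℤ)).toNat ≤ r := by omega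
            exact_mod_cast this
        _ = κ * s ^ 8 / r := by
            field_simp
    · rw [if_neg hk]
      refine (Finset.sum_nonpos fun j _ => ?_)
      refine (H565.bump_zero ?_).le
      have h2 : (r : ℝ) ≤ ((i0 + k + 1 : ℕ) : ℝ) := by
        have : r ≤ i0 + k + 1 := by omega
        exact_mod_cast this
      have h3 : s ≤ -((((-((i0 + k + 1 : ℕ) : ℤ), j) : Z2).1 : ℝ) / r + x) := by
        have h4 : (((-((i0 + k + 1 : ℕ) : ℤ), j) : Z2).1 : ℝ) = -((i0 + k + 1 : ℕ) : ℝ) := by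
          simp only
          push_cast
          ring
        rw [h4, neg_div]
        have h5 : 1 ≤ ((i0 + k + 1 : ℕ) : ℝ) / r := by
          rw [le_div_iff₀ (by linarith)]
          linarith
        linarith
      nlinarith [sq_nonneg ((((-((i0 + k + 1 : ℕ) : ℤ), j) : Z2).2 : ℝ) / r + y)]
  refine (Finset.sum_le_sum h1).trans ?_
  rw [← Finset.sum_filter, Finset.sum_const, nsmul_eq_mul]
  have h2 : ((Finset.range M).filter (fun k => k < r)).card ≤ r := by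
    calc ((Finset.range M).filter (fun k => k < r)).card ≤ (Finset.range r).card := by
          refine Finset.card_le_card fun k hk => ?_
          exact Finset.mem_range.2 (Finset.mem_filter.1 hk).2
      _ = r := Finset.card_range r
  calc (((Finset.range M).filter (fun k => k < r)).card : ℝ) * (κ * s ^ 8 / r)
      ≤ r * (κ * s ^ 8 / r) := by
        refine mul_le_mul_of_nonneg_right (by exact_mod_cast h2) (by positivity)
    _ = κ * s ^ 8 := by
        field_simp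

lemma Bb_right {r : ℕ} {κ x y s : ℝ} (hs : 0 < s) (hx : s < x) {e : Bnd} (h : 0 ≤ e.1.1) :
    Bb r κ x y s e = 0 := by
  unfold Bb
  split_ifs
  · rw [neg_eq_zero]
    refine Finset.sum_eq_zero fun j _ => H565.bump_zero ?_
    have h1 : (0 : ℝ) ≤ (((e.1.1, j) : Z2).1 : ℝ) / r := by
      have : (0 : ℝ) ≤ (e.1.1 : ℝ) := by exact_mod_cast h
      positivity
    nlinarith [sq_nonneg ((((e.1.1, j) : Z2).2 : ℝ) / r + y)]
  · rfl

lemma Bb_low {r : ℕ} {κ x y s : ℝ} {e : Bnd} (h : e.1.2 ≤ -(r : ℤ)) : Bb r κ x y s e = 0 := by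
  unfold Bb
  split_ifs
  · rw [Finset.Ico_eq_empty (by omega), Finset.sum_empty, neg_zero]
  · rfl

lemma Bb_vert {r : ℕ} {κ x y s : ℝ} {e : Bnd} (h : e.2 = true) : Bb r κ x y s e = 0 := by
  unfold Bb
  rw [if_neg (by rw [h]; simp)]

end Vale.Agent.P159.T1.S.H226
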