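import Vale.Agent.P159.T1.S.H226.Flux

/-!
The flux inequality with a second layer function (P159, plan 118).
-/

open Filter Topology

namespace Vale.Agent.P159.T1.S.H226

open Vale.Agent.P159.T1.D

/-- the flux of `v` through the lower boundary with the weight `w'` -/
theorem layer_le {R U : Finset Z2} (hR : R ⊆ U) {v w' : Z2 → ℝ} (hv : ∀ f, 0 ≤ v f)
    (hw : ∀ f, 0 ≤ w' f) (hw0 : ∀ f, 0 ≤ f.2 → w' f = 0) (hw1 : ∀ f ∈ U, f.2 = -1 → w' f = 0)
    (hh : ∀ f ∈ R, dv (dr v) f = 0)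
    (hz : ∀ f, f ∉ R → w' f ≠ 0 → v f = 0) :
    ∑ e ∈ (bd R).filter (fun e => e.1.2 < 0), |dr v e * jmp R w' e| ≤
      Real.sqrt (∑ e ∈ bd R, dr v e ^ 2) * Real.sqrt (∑ e ∈ bd R, mdr w' e ^ 2) := by
  have h1 : ∀ e ∈ (bd R).filter (fun e => e.1.2 < 0), |dr v e * jmp R w' e| =
      -(dr v e * jmp R w' e) := fun e he =>
    abs_of_nonpos (flux_sign hv hw (Finset.mem_filter.1 he).1 (fun h h' => hz _ h h')
      (fun h h' => hz _ h h'))
  have h2 := layer_parts (B := dr v) hR hw0 hw1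
  have h3 : ∑ f ∈ R, dv (dr v) f * w' f = 0 :=
    Finset.sum_eq_zero fun f hf => by rw [hh f hf, zero_mul]
  rw [h3, zero_add] at h2
  calc ∑ e ∈ (bd R).filter (fun e => e.1.2 < 0), |dr v e * jmp R w' e| =
        -∑ e ∈ bd R, dr v e * mdr w' e := by
        rw [Finset.sum_congr rfl h1, Finset.sum_neg_distrib, h2]
    _ ≤ |∑ e ∈ bd R, dr v e * mdr w' e| := neg_le_abs _
    _ ≤ Real.sqrt (∑ e ∈ bd R, dr v e ^ 2) * Real.sqrt (∑ e ∈ bd R, mdr w' e ^ 2) := by
        rw [← Real.sqrt_mul (Finset.sum_nonneg fun _ _ => sq_nonneg _)]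
        exact Real.abs_le_sqrt (Finset.sum_mul_sq_le_sq_mul_sq _ _ _)

/-- **S.FLUX, second form.** `w` = layer function, `w'` = second layer function, `χ` = cut-off at
infinity -/
theorem flux_main2 {R U : Finset Z2} (hR : R ⊆ U) {E Bz B0 : Bnd → ℝ} {v w w' χ ρ : Z2 → ℝ} {Y : ℝ}
    (hY : 0 < Y) (hB : ∀ e ∈ bd R, B0 e = E e - dr v e / Y)
    (hdiv : IsDiv R E ρ) (hρ : ∀ f ∈ R, 0 ≤ ρ f)
    (hh : ∀ f ∈ R, dv (dr v) f = 0) (hv : ∀ f, 0 ≤ v f)
    (hw : ∀ f, 0 ≤ w f) (hw0 : ∀ f, 0 ≤ f.2 → w f = 0)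
    (hw1 : ∀ f ∈ U, f.2 = -1 → w f = 0) (hwN : ∀ f ∈ U, f ∉ R → w f = 0)
    (hw' : ∀ f, 0 ≤ w' f) (hw0' : ∀ f, 0 ≤ f.2 → w' f = 0)
    (hw1' : ∀ f ∈ U, f.2 = -1 → w' f = 0) (hz' : ∀ f, f ∉ R → w' f ≠ 0 → v f = 0)
    (hχ : ∀ f, 0 ≤ χ f) (hwχ : ∀ f, f ∉ U → 1 - w f ≤ w' f + χ f) (hwle : ∀ f, f ∉ U → w f ≤ 1)
    (hz : ∀ f, f ∉ R → χ f ≠ 0 → v f = 0) :
    Flow R U B0 + Y * ∑ e ∈ bd R, B0 e * Bz e ≤
      Real.sqrt (∑ e ∈ bd R, B0 e ^ 2) *
        Real.sqrt (∑ e ∈ bd R, (Y * Bz e + mdr w e) ^ 2) +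
      ∑ e ∈ (bd R).filter (fun e => e.1.2 < 0), |E e| * |jmp R (fun f => out U f - w f) e| +
      Real.sqrt (∑ e ∈ bd R, dr v e ^ 2) * (Real.sqrt (∑ e ∈ bd R, dr χ e ^ 2) +
        Real.sqrt (∑ e ∈ bd R, mdr w' e ^ 2)) / Y := by
  classical
  have hmem : ∀ f ∈ R, ∀ e ∈ sides f, e ∈ bd R := fun f hf e he =>
    Finset.mem_biUnion.2 ⟨f, hf, he⟩
  have hdv : ∀ f ∈ R, dv B0 f = ρ f := by
    intro f hf
    have s1 := hB _ (hmem f hf (f, false) (by simp [sides]))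
    have s2 := hB _ (hmem f hf ((f.1, f.2 + 1), false) (by simp [sides]))
    have s3 := hB _ (hmem f hf (f, true) (by simp [sides]))
    have s4 := hB _ (hmem f hf ((f.1 + 1, f.2), true) (by simp [sides]))
    have h1 : dv B0 f = dv E f - dv (dr v) f / Y := by
      unfold dv
      rw [s1, s2, s3, s4]
      ring
    rw [h1, hh f hf, isDiv_iff.1 hdiv f hf, zero_div, sub_zero]
  have h1 := layer_parts (B := B0) hR hw0 hw1
  have h2 : 0 ≤ ∑ f ∈ R, dv B0 f * w f :=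
    Finset.sum_nonneg fun f hf => by rw [hdv f hf]; exact mul_nonneg (hρ f hf) (hw f)
  -- the flux with weight `w`
  have h3 : ∑ e ∈ (bd R).filter (fun e => e.1.2 < 0), B0 e * jmp R w e +
      Y * ∑ e ∈ bd R, B0 e * Bz e ≤ Real.sqrt (∑ e ∈ bd R, B0 e ^ 2) *
        Real.sqrt (∑ e ∈ bd R, (Y * Bz e + mdr w e) ^ 2) := by
    have h4 : ∑ e ∈ bd R, B0 e * mdr w e + Y * ∑ e ∈ bd R, B0 e * Bz e =
        ∑ e ∈ bd R, B0 e * (Y * Bz e + mdr w e) := by
      rw [Finset.mul_sum, ← Finset.sum_add_distrib]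
      exact Finset.sum_congr rfl fun e _ => by ring
    have h5 : ∑ e ∈ bd R, B0 e * (Y * Bz e + mdr w e) ≤ Real.sqrt (∑ e ∈ bd R, B0 e ^ 2) *
        Real.sqrt (∑ e ∈ bd R, (Y * Bz e + mdr w e) ^ 2) := by
      rw [← Real.sqrt_mul (Finset.sum_nonneg fun _ _ => sq_nonneg _)]
      exact (le_abs_self _).trans (Real.abs_le_sqrt (Finset.sum_mul_sq_le_sq_mul_sq _ _ _))
    linarith
  -- the rest of the flux
  have h4 : Flow R U B0 = ∑ e ∈ (bd R).filter (fun e => e.1.2 < 0), B0 e * jmp R w e +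
      ∑ e ∈ (bd R).filter (fun e => e.1.2 < 0),
        B0 e * jmp R (fun f => out U f - w f) e := by
    unfold Flow
    rw [← Finset.sum_add_distrib]
    refine Finset.sum_congr rfl fun e _ => ?_
    rw [jmp_sub]
    ring
  have hcmp : ∀ e ∈ bd R, |jmp R (fun f => out U f - w f) e| ≤ |jmp R χ e| + |jmp R w' e| := by
    intro e he
    have key : ∀ f, f ∉ R → 0 ≤ out U f - w f ∧ out U f - w f ≤ χ f + w' f := by
      intro f hf
      unfold out
      by_cases hU : f ∈ U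
      · rw [if_pos hU, hwN f hU hf]
        have e1 := hχ f
        have e2 := hw' f
        exact ⟨by simp, by simp; positivity⟩
      · rw [if_neg hU]
        exact ⟨by linarith [hwle f hU], by linarith [hwχ f hU]⟩
    rw [H910.mem_bd] at he
    unfold jmp
    by_cases h5 : lf e ∈ R
    · rw [if_pos h5, if_pos h5, if_pos h5]
      by_cases h6 : rt e ∈ R
      · rw [if_pos h6, if_pos h6, if_pos h6]
        simp
      · rw [if_neg h6, if_neg h6, if_neg h6, zero_sub, zero_sub, zero_sub, abs_neg, abs_neg,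
          abs_neg, abs_of_nonneg (key _ h6).1, abs_of_nonneg (hχ _), abs_of_nonneg (hw' _)]
        exact (key _ h6).2
    · have h6 : rt e ∈ R := by
        rcases he with h | h
        · exact h
        · exact absurd h h5
      rw [if_neg h5, if_neg h5, if_neg h5, if_pos h6, if_pos h6, if_pos h6, sub_zero, sub_zero,
        sub_zero, abs_of_nonneg (key _ h5).1, abs_of_nonneg (hχ _), abs_of_nonneg (hw' _)]
      exact (key _ h5).2
  have h5 : ∑ e ∈ (bd R).filter (fun e => e.1.2 < 0), B0 e * jmp R (fun f => out U f - w f) e ≤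
      ∑ e ∈ (bd R).filter (fun e => e.1.2 < 0), |E e| * |jmp R (fun f => out U f - w f) e| +
      (∑ e ∈ (bd R).filter (fun e => e.1.2 < 0), |dr v e * jmp R χ e| +
        ∑ e ∈ (bd R).filter (fun e => e.1.2 < 0), |dr v e * jmp R w' e|) / Y := by
    rw [← Finset.sum_add_distrib, Finset.sum_div, ← Finset.sum_add_distrib]
    refine Finset.sum_le_sum fun e he => ?_
    have he' := (Finset.mem_filter.1 he).1
    calc B0 e * jmp R (fun f => out U f - w f) e ≤
          |B0 e * jmp R (fun f => out U f - w f) e| := le_abs_self _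
      _ = |B0 e| * |jmp R (fun f => out U f - w f) e| := abs_mul _ _
      _ ≤ (|E e| + |dr v e| / Y) * |jmp R (fun f => out U f - w f) e| := by
          refine mul_le_mul_of_nonneg_right ?_ (abs_nonneg _)
          rw [hB e he']
          refine (abs_sub _ _).trans ?_
          rw [abs_div, abs_of_pos hY]
      _ = |E e| * |jmp R (fun f => out U f - w f) e| +
          |dr v e| * |jmp R (fun f => out U f - w f) e| / Y := by ring
      _ ≤ |E e| * |jmp R (fun f => out U f - w f) e| +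
          (|dr v e * jmp R χ e| + |dr v e * jmp R w' e|) / Y := by
          rw [abs_mul (dr v e) (jmp R χ e), abs_mul (dr v e) (jmp R w' e), ← mul_add]
          exact add_le_add le_rfl (div_le_div_of_nonneg_right
            (mul_le_mul_of_nonneg_left (hcmp e he') (abs_nonneg _)) hY.le)
  have h6 := flux_le hv hχ hh (fun e _ => ⟨fun a b => hz _ a b, fun a b => hz _ a b⟩)
    (Finset.filter_subset (fun e : Bnd => e.1.2 < 0) (bd R))
  have h7 := layer_le hR hv hw' hw0' hw1' hh hz'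
  have h8 : (∑ e ∈ (bd R).filter (fun e => e.1.2 < 0), |dr v e * jmp R χ e| +
      ∑ e ∈ (bd R).filter (fun e => e.1.2 < 0), |dr v e * jmp R w' e|) / Y ≤
      Real.sqrt (∑ e ∈ bd R, dr v e ^ 2) * (Real.sqrt (∑ e ∈ bd R, dr χ e ^ 2) +
        Real.sqrt (∑ e ∈ bd R, mdr w' e ^ 2)) / Y := by
    rw [mul_add]
    gcongr
  rw [h4]
  linarith

end Vale.Agent.P159.T1.S.H226
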