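import Vale.Agent.P159.T1.S.H226.Chi
import Vale.Agent.P159.T1.S.H757.Layer

/-!
A second layer function: one on the slit between the radii `a` and `7 a`, supported in the columns
`(a / 2, 8 a)` and in depth `< a / (2 q)`, with bounded energy.
-/

open Filter Topology

namespace Vale.Agent.P159.T1.S.H226

open Vale.Agent.P159.T1.D

/-- the profile -/
noncomputable def lp (q : ℕ) (a x k : ℝ) : ℝ :=
  max 0 (min (min 1 (2 * x / a - 1)) (min (8 - x / a) (1 - 2 * q * k / a)))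

/-- the layer function of the left tip -/
noncomputable def lw (q : ℕ) (a : ℝ) (f : Z2) : ℝ :=
  if f.2 ≤ -1 then lp q a (-(f.1 : ℝ)) (-1 - (f.2 : ℝ)) else 0

lemma lw_nonneg (q : ℕ) (a : ℝ) (f : Z2) : 0 ≤ lw q a f := by
  unfold lw lp
  split_ifs
  · exact le_max_left _ _
  · exact le_rfl

lemma lw_up {q : ℕ} {a : ℝ} {f : Z2} (h : 0 ≤ f.2) : lw q a f = 0 := by
  unfold lw
  rw [if_neg (by omega)]

lemma lw_supp {q : ℕ} {a : ℝ} (ha : 0 < a) {f : Z2} (h : lw q a f ≠ 0) :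
    f.2 ≤ -1 ∧ a < 2 * (-(f.1 : ℝ)) ∧ -(f.1 : ℝ) < 8 * a ∧ 2 * q * (-1 - (f.2 : ℝ)) < a := by
  unfold lw at h
  split_ifs at h with h0
  · have h1 : 0 < min (min 1 (2 * (-(f.1 : ℝ)) / a - 1))
        (min (8 - (-(f.1 : ℝ)) / a) (1 - 2 * q * (-1 - (f.2 : ℝ)) / a)) := by
      by_contra hc
      exact h (max_eq_left (not_lt.1 hc))
    rw [lt_min_iff, lt_min_iff, lt_min_iff] at h1
    obtain ⟨⟨-, h2⟩, h3, h4⟩ := h1
    refine ⟨h0, ?_, ?_, ?_⟩
    · have : 1 < 2 * (-(f.1 : ℝ)) / a := by linarith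
      rwa [lt_div_iff₀ ha, one_mul] at this
    · have : -(f.1 : ℝ) / a < 8 := by linarith
      rwa [div_lt_iff₀ ha] at this
    · have : 2 * q * (-1 - (f.2 : ℝ)) / a < 1 := by linarith
      rwa [div_lt_iff₀ ha, one_mul] at this
  · exact absurd rfl h

lemma lw_right {q : ℕ} {a : ℝ} (ha : 0 < a) {f : Z2} (h : 0 ≤ f.1) : lw q a f = 0 := by
  by_contra hc
  have h1 := (lw_supp ha hc).2.1
  have h2 : (0 : ℝ) ≤ f.1 := by exact_mod_cast h
  linarith

lemma lw_one {q : ℕ} {a : ℝ} (ha : 0 < a) {f : Z2} (h : f.2 = -1) (h1 : a ≤ -(f.1 : ℝ))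
    (h2 : -(f.1 : ℝ) ≤ 7 * a) : lw q a f = 1 := by
  unfold lw lp
  rw [if_pos (by omega), h]
  have e1 : 1 ≤ 2 * (-(f.1 : ℝ)) / a - 1 := by
    have : 2 ≤ 2 * (-(f.1 : ℝ)) / a := by
      rw [le_div_iff₀ ha]
      linarith
    linarith
  have e2 : 1 ≤ 8 - -(f.1 : ℝ) / a := by
    have : -(f.1 : ℝ) / a ≤ 7 := by
      rw [div_le_iff₀ ha]
      linarith
    linarith
  have e3 : 1 - 2 * (q : ℝ) * (-1 - ((-1 : ℤ) : ℝ)) / a = 1 := by
    push_cast
    ring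
  rw [e3, min_eq_left e1, min_eq_right e2, min_self, max_eq_right zero_le_one]

lemma lp_lip {q : ℕ} (hq : 1 ≤ q) {a : ℝ} (ha : 0 < a) {x k x' k' : ℝ}
    (hx : |x - x'| ≤ 1) (hk : |k - k'| ≤ 1) : |lp q a x k - lp q a x' k'| ≤ 2 * q / a := by
  have hq' : (1 : ℝ) ≤ q := by exact_mod_cast hq
  unfold lp
  refine (abs_max_sub_max_le_max _ _ _ _).trans ?_
  rw [sub_self, abs_zero]
  refine max_le (by positivity) ?_
  refine (abs_min_sub_min_le_max _ _ _ _).trans (max_le ?_ ?_)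
  · refine (abs_min_sub_min_le_max _ _ _ _).trans (max_le ?_ ?_)
    · rw [sub_self, abs_zero]
      positivity
    · have e1 : 2 * x / a - 1 - (2 * x' / a - 1) = 2 / a * (x - x') := by ring
      rw [e1, abs_mul, abs_of_pos (by positivity)]
      calc 2 / a * |x - x'| ≤ 2 / a * 1 := by gcongr
        _ ≤ 2 * q / a := by
            rw [mul_one]
            gcongr
            linarith
  · refine (abs_min_sub_min_le_max _ _ _ _).trans (max_le ?_ ?_)
    · have e1 : 8 - x / a - (8 - x' / a) = -(1 / a * (x - x')) := by ring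
      rw [e1, abs_neg, abs_mul, abs_of_pos (by positivity)]
      calc 1 / a * |x - x'| ≤ 1 / a * 1 := by gcongr
        _ ≤ 2 * q / a := by
            rw [mul_one]
            gcongr
            linarith
    · have e1 : 1 - 2 * q * k / a - (1 - 2 * q * k' / a) = -(2 * q / a * (k - k')) := by ring
      rw [e1, abs_neg, abs_mul, abs_of_pos (by positivity)]
      calc 2 * q / a * |k - k'| ≤ 2 * q / a * 1 := by gcongr
        _ = 2 * q / a := mul_one _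

lemma mdr_lw_le {q : ℕ} (hq : 1 ≤ q) {a : ℝ} (ha : 0 < a) (e : Bnd) :
    |mdr (lw q a) e| ≤ 2 * q / a := by
  unfold mdr
  split_ifs with h
  · unfold dr lw
    obtain ⟨⟨i, j⟩, d⟩ := e
    simp only at h
    cases d
    · simp only [lf, rt, Bool.false_eq_true, if_false]
      rw [if_pos (by omega), if_pos (by omega)]
      refine lp_lip hq ha ?_ ?_
      · simp
      · push_cast
        rw [show (-1 - (j : ℝ) - (-1 - ((j : ℝ) - 1))) = -1 by ring]
        simp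
    · simp only [lf, rt, if_true]
      have hj : j ≤ -1 := by omega
      simp only [hj, if_true]
      refine lp_lip hq ha ?_ ?_
      · push_cast
        rw [show (-((i : ℝ) - 1) - (-(i : ℝ))) = 1 by ring]
        simp
      · simp
  · rw [abs_zero]
    positivity

lemma mdr_lw_supp {q : ℕ} (hq : 1 ≤ q) {a : ℝ} (ha : 0 < a) {M : ℕ} (hM : 8 * a + 2 ≤ M) {e : Bnd}
    (h : mdr (lw q a) e ≠ 0) :
    e.1.1 ∈ Finset.Icc (-(M : ℤ)) M ∧ e.1.2 ∈ Finset.Icc (-(M : ℤ)) M := by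
  have hq' : (1 : ℝ) ≤ q := by exact_mod_cast hq
  have h1 : lw q a (lf e) ≠ 0 ∨ lw q a (rt e) ≠ 0 := by
    by_contra hc
    push Not at hc
    apply h
    unfold mdr dr
    rw [hc.1, hc.2, sub_self]
    split_ifs <;> rfl
  have key : ∀ g : Z2, lw q a g ≠ 0 → |g.1 - e.1.1| ≤ 1 → |g.2 - e.1.2| ≤ 1 →
      e.1.1 ∈ Finset.Icc (-(M : ℤ)) M ∧ e.1.2 ∈ Finset.Icc (-(M : ℤ)) M := by
    intro g hg h3 h4
    obtain ⟨g1, g2, g3, g4⟩ := lw_supp ha hg
    have g5 : (g.2 : ℝ) ≤ -1 := by exact_mod_cast g1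
    have g6 : -1 - (g.2 : ℝ) < a := by
      have : 0 ≤ -1 - (g.2 : ℝ) := by linarith
      nlinarith
    rw [abs_le] at h3 h4
    have b1 : (-1 : ℝ) ≤ (g.1 : ℝ) - e.1.1 ∧ (g.1 : ℝ) - e.1.1 ≤ 1 := by
      constructor
      · exact_mod_cast h3.1
      · exact_mod_cast h3.2
    have b2 : (-1 : ℝ) ≤ (g.2 : ℝ) - e.1.2 ∧ (g.2 : ℝ) - e.1.2 ≤ 1 := by
      constructor
      · exact_mod_cast h4.1
      · exact_mod_cast h4.2
    simp only [Finset.mem_Icc]
    refine ⟨⟨?_, ?_⟩, ⟨?_, ?_⟩⟩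
    · have : (-(M : ℝ)) ≤ (e.1.1 : ℝ) := by linarith [b1.1, b1.2]
      exact_mod_cast this
    · have : (e.1.1 : ℝ) ≤ (M : ℝ) := by linarith [b1.1, b1.2]
      exact_mod_cast this
    · have : (-(M : ℝ)) ≤ (e.1.2 : ℝ) := by linarith [b2.1, b2.2]
      exact_mod_cast this
    · have : (e.1.2 : ℝ) ≤ (M : ℝ) := by linarith [b2.1, b2.2]
      exact_mod_cast this
  rcases h1 with h1 | h1
  · refine key _ h1 ?_ ?_
    · rcases e with ⟨P, d⟩
      cases d <;> simp [lf]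
    · rcases e with ⟨P, d⟩
      cases d <;> simp [lf]
  · refine key _ h1 ?_ ?_
    · rcases e with ⟨P, d⟩
      cases d <;> simp [rt]
    · rcases e with ⟨P, d⟩
      cases d <;> simp [rt]

lemma lw_energy {q : ℕ} (hq : 1 ≤ q) {a : ℝ} (ha : 1 ≤ a) (S : Finset Bnd) :
    ∑ e ∈ S, mdr (lw q a) e ^ 2 ≤ 4232 * q ^ 2 := by
  classical
  have ha0 : 0 < a := by linarith
  set M : ℕ := ⌈8 * a + 2⌉₊ with hMdef
  have hM : 8 * a + 2 ≤ M := Nat.le_ceil _
  have hM' : (M : ℝ) < 8 * a + 2 + 1 := Nat.ceil_lt_add_one (by linarith)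
  set T : Finset Bnd := (Finset.Icc (-(M : ℤ)) M ×ˢ Finset.Icc (-(M : ℤ)) M) ×ˢ
    (Finset.univ : Finset Bool) with hT
  have h1 : ∑ e ∈ S, mdr (lw q a) e ^ 2 ≤ ∑ e ∈ T, mdr (lw q a) e ^ 2 := by
    have h2 : ∑ e ∈ S, mdr (lw q a) e ^ 2 = ∑ e ∈ S.filter (fun e => e ∈ T),
        mdr (lw q a) e ^ 2 := by
      rw [Finset.sum_filter]
      refine Finset.sum_congr rfl fun e _ => ?_
      split_ifs with h
      · rfl
      · by_contra h0
        have h3 : mdr (lw q a) e ≠ 0 := fun h3 => h0 (by rw [h3]; ring)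
        obtain ⟨h4, h5⟩ := mdr_lw_supp hq ha0 hM h3
        exact h (Finset.mem_product.2 ⟨Finset.mem_product.2 ⟨h4, h5⟩, Finset.mem_univ _⟩)
    rw [h2]
    exact Finset.sum_le_sum_of_subset_of_nonneg
      (fun e he => (Finset.mem_filter.1 he).2) fun _ _ _ => sq_nonneg _
  have h2 : ∑ e ∈ T, mdr (lw q a) e ^ 2 ≤ ∑ e ∈ T, (2 * q / a) ^ 2 := by
    refine Finset.sum_le_sum fun e _ => ?_
    rw [← sq_abs]
    exact pow_le_pow_left₀ (abs_nonneg _) (mdr_lw_le hq ha0 e) 2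
  have h3 : (T.card : ℝ) = 2 * (2 * M + 1) ^ 2 := by
    rw [hT, Finset.card_product, Finset.card_product, Int.card_Icc, Finset.card_univ,
      Fintype.card_bool]
    have h4 : ((M : ℤ) + 1 - (-(M : ℤ))).toNat = 2 * M + 1 := by omega
    rw [h4]
    push_cast
    ring
  rw [Finset.sum_const, nsmul_eq_mul, h3] at h2
  refine (h1.trans h2).trans ?_
  have h4 : (2 * (M : ℝ) + 1) ^ 2 ≤ (23 * a) ^ 2 :=
    pow_le_pow_left₀ (by positivity) (by linarith) 2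
  calc 2 * (2 * (M : ℝ) + 1) ^ 2 * (2 * (q : ℝ) / a) ^ 2 ≤
        2 * (23 * a) ^ 2 * (2 * (q : ℝ) / a) ^ 2 := by
        gcongr
    _ = 4232 * (q : ℝ) ^ 2 := by
        field_simp
        ring

/-- the layer function of both tips -/
noncomputable def lw2 (q : ℕ) (a : ℝ) (r : ℕ) (f : Z2) : ℝ := lw q a f + lw q a (mir r f)

lemma lw2_nonneg (q : ℕ) (a : ℝ) (r : ℕ) (f : Z2) : 0 ≤ lw2 q a r f :=
  add_nonneg (lw_nonneg _ _ _) (lw_nonneg _ _ _)

lemma lw2_up {q : ℕ} {a : ℝ} {r : ℕ} {f : Z2} (h : 0 ≤ f.2) : lw2 q a r f = 0 := by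
  unfold lw2
  rw [lw_up h, lw_up (f := mir r f) h, add_zero]

lemma lw2_gap {q : ℕ} {a : ℝ} (ha : 0 < a) {r : ℕ} {f : Z2} (h1 : 0 ≤ f.1) (h2 : f.1 < r) :
    lw2 q a r f = 0 := by
  unfold lw2
  rw [lw_right ha h1, lw_right ha (f := mir r f) (by unfold mir; simp only; omega), add_zero]

lemma lw2_row {q : ℕ} {a : ℝ} (ha : 0 < a) {R r : ℕ} {f : Z2} (hf : f ∈ SB R r) (h : f.2 = -1) :
    lw2 q a r f = 0 := by
  unfold SB at hf
  rw [Finset.mem_filter] at hf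
  refine lw2_gap ha ?_ ?_
  · by_contra hc
    exact hf.2 ⟨h, Or.inl (not_le.1 hc)⟩
  · by_contra hc
    exact hf.2 ⟨h, Or.inr (not_lt.1 hc)⟩

lemma mdr_mir_sq (r : ℕ) (w : Z2 → ℝ) (e : Bnd) :
    mdr (fun f => w (mir r f)) e ^ 2 = mdr w (D.mirB r e) ^ 2 := by
  have h1 : mdr (fun f => w (mir r f)) e = D.mB r (mdr w) e := H757.md_mir r w e
  rw [h1]
  unfold D.mB
  split_ifs
  · ring
  · rfl

lemma lw2_energy {q : ℕ} (hq : 1 ≤ q) {a : ℝ} (ha : 1 ≤ a) (r : ℕ) (S : Finset Bnd) :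
    ∑ e ∈ S, mdr (lw2 q a r) e ^ 2 ≤ 16928 * q ^ 2 := by
  classical
  have h1 : ∀ e ∈ S, mdr (lw2 q a r) e ^ 2 ≤
      2 * mdr (lw q a) e ^ 2 + 2 * mdr (lw q a) (D.mirB r e) ^ 2 := by
    intro e _
    rw [← mdr_mir_sq]
    have h2 : mdr (lw2 q a r) e = mdr (lw q a) e + mdr (fun f => lw q a (mir r f)) e := by
      unfold mdr lw2 dr
      split_ifs <;> ring
    rw [h2]
    nlinarith [sq_nonneg (mdr (lw q a) e - mdr (fun f => lw q a (mir r f)) e)]
  refine (Finset.sum_le_sum h1).trans ?_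
  rw [Finset.sum_add_distrib, ← Finset.mul_sum, ← Finset.mul_sum]
  have hinj : Function.Injective (D.mirB r) := fun a b h => by
    rw [← D.mirB_mirB r a, h, D.mirB_mirB]
  have h3 : ∑ e ∈ S, mdr (lw q a) (D.mirB r e) ^ 2 =
      ∑ e ∈ S.image (D.mirB r), mdr (lw q a) e ^ 2 := by
    rw [Finset.sum_image fun a _ b _ h => hinj h]
  rw [h3]
  have h4 := lw_energy hq ha S
  have h5 := lw_energy hq ha (S.image (D.mirB r))
  linarith

end Vale.Agent.P159.T1.S.H226
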