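import Vale.Agent.P159.T1.S.H226.ExpF
import Vale.Agent.P159.T1.S.H226.Lay
import Vale.Agent.P159.T1.S.H226.FluxB
import Vale.Agent.P159.T1.S.H757.Bridge

/-!
**S.FX**: the flux inequality for the objects of `S/Stmts.lean` (P159, plan 118).
-/

open Filter Topology

namespace Vale.Agent.P159.T1.S.H226

open Vale.Agent.P159.T1.D Vale.Agent.P159.T1.S
open Vale.Agent.P159.T1.H565 (mb Bb)
open Vale.Agent.P159.T1.S.H757 (wz2)

/-! ### the bonds of the lower boundary -/

/-- bonds with `j < 0` and one side in the slit box -/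
lemma bnd_cases {R r : ℕ} {e : Bnd} (he : e.1.2 < 0)
    (h : (lf e ∈ SB R r ∧ rt e ∉ SB R r) ∨ (rt e ∈ SB R r ∧ lf e ∉ SB R r)) :
    (∃ i : ℕ, 1 ≤ i ∧ i ≤ R ∧ e = lb i) ∨ (∃ i : ℕ, 1 ≤ i ∧ i ≤ R ∧ e = mb r (lb i)) ∨
      (rt e ∈ SB R r ∧ lf e = (-1, -1)) ∨ (lf e ∈ SB R r ∧ rt e = ((r : ℤ), -1)) ∨
      (e.2 = true ∧ (e.1.1 = -(R : ℤ) ∨ e.1.1 = r + R)) ∨ (e.2 = false ∧ e.1.2 = -(R : ℤ)) := by
  obtain ⟨⟨i, j⟩, d⟩ := e
  simp only at he
  cases d
  · simp only [lf, rt, H565.mem_SB, Bool.false_eq_true, if_false] at h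
    by_cases hj : j = -(R : ℤ)
    · right; right; right; right; right
      exact ⟨rfl, hj⟩
    · by_cases hi : i < 0
      · left
        refine ⟨(-i).toNat, by omega, by omega, ?_⟩
        unfold lb
        have e1 : (((-i).toNat : ℕ) : ℤ) = -i := Int.toNat_of_nonneg (by omega)
        rw [e1]
        have e2 : j = -1 := by omega
        rw [e2, neg_neg]
      · right; left
        refine ⟨(i - r + 1).toNat, by omega, by omega, ?_⟩
        unfold lb mb
        have e1 : (((i - r + 1).toNat : ℕ) : ℤ) = i - r + 1 := Int.toNat_of_nonneg (by omega)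
        simp only [Bool.false_eq_true, if_false]
        rw [e1]
        have e2 : j = -1 := by omega
        rw [e2]
        congr 2
        ring
  · simp only [lf, rt, H565.mem_SB, if_true] at h
    by_cases hj : i = -(R : ℤ) ∨ i = r + R
    · right; right; right; right; left
      exact ⟨rfl, hj⟩
    · by_cases hi : i ≤ 0
      · right; right; left
        simp only [lf, rt, H565.mem_SB, if_true, Prod.mk.injEq]
        omega
      · right; right; right; left
        simp only [lf, rt, H565.mem_SB, if_true, Prod.mk.injEq]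
        omega

/-! ### the explicit field on these bonds -/

variable {Y V κ x y s c1 : ℝ} {q n0 r : ℕ}

lemma mB_false {B : Bnd → ℝ} {e : Bnd} (h : e.2 = false) : H565.mB r B e = B (mb r e) := by
  unfold H565.mB
  rw [if_neg (by rw [h]; simp)]

lemma mb_lb (i : ℕ) : mb r (lb i) = (((r : ℤ) - 1 + i, -1), false) := by
  unfold mb lb
  simp

lemma Bm_mb_lb (hr : 1 ≤ r) (hc1 : 0 < c1) (hc : c1 ≤ 1 / 4) {i : ℕ} (hi : 1 ≤ i) :
    Bm Y V q n0 r c1 (mb r (lb i)) = 0 := by
  have hr' : (1 : ℝ) ≤ r := by exact_mod_cast hr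
  have hi' : (1 : ℝ) ≤ i := by exact_mod_cast hi
  rw [mb_lb]
  refine Bm_far hr hc1 hc ?_ ?_
  · simp only [bs]
    push_cast
    nlinarith
  · simp only [bt, Bool.false_eq_true, if_false]
    push_cast
    nlinarith

lemma Bb_mb_lb (hs : 0 < s) (hx : s < x) (hr : 1 ≤ r) (i : ℕ) :
    Bb r κ x y s (mb r (lb i)) = 0 := by
  rw [mb_lb]
  refine Bb_right hs hx ?_
  simp only
  omega

lemma Be_lb (hs : 0 < s) (hx : s < x) (hr : 1 ≤ r) (hc1 : 0 < c1) (hc : c1 ≤ 1 / 4) {i : ℕ}
    (hi : 1 ≤ i) : |Be Y V q n0 r κ x y s c1 (lb i)| ≤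
      |Bm Y V q n0 r c1 (lb i)| + |Bb r κ x y s (lb i)| := by
  unfold Be
  rw [mB_false rfl, mB_false rfl, Bm_mb_lb hr hc1 hc hi, Bb_mb_lb hs hx hr, add_zero, add_zero]
  exact abs_add_le _ _

lemma Be_mb_lb (hs : 0 < s) (hx : s < x) (hr : 1 ≤ r) (hc1 : 0 < c1) (hc : c1 ≤ 1 / 4) {i : ℕ}
    (hi : 1 ≤ i) : |Be Y V q n0 r κ x y s c1 (mb r (lb i))| ≤
      |Bm Y V q n0 r c1 (lb i)| + |Bb r κ x y s (lb i)| := by
  have e1 : (mb r (lb i)).2 = false := by
    rw [mb_lb]
  unfold Be
  rw [mB_false e1, mB_false e1, H565.mb_mb, Bm_mb_lb hr hc1 hc hi, Bb_mb_lb hs hx hr, zero_add,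
    add_zero]
  exact abs_add_le _ _

/-- on the boundary of the box the explicit field vanishes -/
lemma Be_box (hr : 1 ≤ r) (hc1 : 0 < c1) (hc : c1 ≤ 1 / 4) {R : ℕ} (hR : r ≤ R) {e : Bnd}
    (h : (e.2 = true ∧ (e.1.1 = -(R : ℤ) ∨ e.1.1 = r + R)) ∨ (e.2 = false ∧ e.1.2 = -(R : ℤ))) :
    Be Y V q n0 r κ x y s c1 e = 0 := by
  have hr' : (1 : ℝ) ≤ r := by exact_mod_cast hr
  have hR' : (r : ℝ) ≤ R := by exact_mod_cast hR
  obtain ⟨⟨i, j⟩, d⟩ := e
  rcases h with ⟨h1, h2⟩ | ⟨h1, h2⟩
  · simp only at h1 h2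
    subst h1
    have k1 : Bm Y V q n0 r c1 ((i, j), true) = 0 := by
      refine Bm_far hr hc1 hc ?_ ?_
      · simp only [bs]
        rcases h2 with h2 | h2 <;> rw [h2] <;> push_cast <;> nlinarith [sq_nonneg (j : ℝ)]
      · simp only [bt, if_true]
        rcases h2 with h2 | h2 <;> rw [h2] <;> push_cast <;> nlinarith [sq_nonneg ((j : ℝ) + 1)]
    have k2 : Bm Y V q n0 r c1 (mb r ((i, j), true)) = 0 := by
      unfold mb
      simp only [if_true]
      refine Bm_far hr hc1 hc ?_ ?_
      · simp only [bs]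
        rcases h2 with h2 | h2 <;> rw [h2] <;> push_cast <;> nlinarith [sq_nonneg (j : ℝ)]
      · simp only [bt, if_true]
        rcases h2 with h2 | h2 <;> rw [h2] <;> push_cast <;> nlinarith [sq_nonneg ((j : ℝ) + 1)]
    have k3 : (mb r ((i, j), true)).2 = true := by
      unfold mb
      simp
    unfold Be H565.mB
    rw [k1, k2, Bb_vert (e := ((i, j), true)) rfl, Bb_vert (e := mb r ((i, j), true)) k3]
    simp
  · simp only at h1 h2
    subst h1
    have k1 : Bm Y V q n0 r c1 ((i, j), false) = 0 := by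
      refine Bm_far hr hc1 hc ?_ ?_
      · simp only [bs]
        rw [h2]
        push_cast
        nlinarith [sq_nonneg (i : ℝ)]
      · simp only [bt, Bool.false_eq_true, if_false]
        rw [h2]
        push_cast
        nlinarith [sq_nonneg ((i : ℝ) + 1)]
    have k2 : Bm Y V q n0 r c1 (mb r ((i, j), false)) = 0 := by
      unfold mb
      simp only [Bool.false_eq_true, if_false]
      refine Bm_far hr hc1 hc ?_ ?_
      · simp only [bs]
        rw [h2]
        push_cast
        nlinarith [sq_nonneg ((r : ℝ) - 1 - i)]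
      · simp only [bt, Bool.false_eq_true, if_false]
        rw [h2]
        push_cast
        nlinarith [sq_nonneg ((r : ℝ) - 1 - i + 1)]
    have k3 : Bb r κ x y s ((i, j), false) = 0 := Bb_low (by simp only; omega)
    have k4 : Bb r κ x y s (mb r ((i, j), false)) = 0 := by
      unfold mb
      simp only [Bool.false_eq_true, if_false]
      exact Bb_low (by simp only; omega)
    unfold Be
    rw [mB_false (e := ((i, j), false)) rfl, mB_false (e := ((i, j), false)) rfl, k1, k2, k3, k4]
    simp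

/-! ### the flux of the explicit field -/

/-- **the flux of the explicit field through the lower boundary outside of the window** -/
theorem expl_flux {N : Finset Z2} (hq : 1 ≤ q) (hκ : 0 ≤ κ) (hs : 0 < s) (hx : s < x)
    (hsx : s + x < 1 / 4) (hr : 1 ≤ r) (hc1 : 0 < c1) (hc : c1 ≤ 1 / 16) (ha : 1 ≤ c1 * r)
    {R : ℕ} (hR : r ≤ R) (hN : Expl (SB R r) (Tz q r c1 (SB R r)) N) {C : ℝ}
    (hC : ∑ k ∈ Finset.range R, |Bm Y V q n0 r c1 (lb (⌊c1 * r⌋₊ + k + 1))| ≤ C) :
    ∑ e ∈ (bd (SB R r \ N)).filter (fun e => e.1.2 < 0), |Be Y V q n0 r κ x y s c1 e| *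
      |jmp (SB R r \ N) (fun f => out (SB R r) f - wz2 q (c1 * r) r f) e| ≤
      2 * (C + κ * s ^ 8) := by
  classical
  set U := SB R r with hU
  set a := c1 * r with hadef
  set i0 := ⌊a⌋₊ with hi0
  have ha0 : 0 < a := by linarith
  have hc4 : c1 ≤ 1 / 4 := by linarith
  set L : Finset Bnd := (Finset.range R).image (fun k => lb (i0 + k + 1)) with hL
  set L' : Finset Bnd := (Finset.range R).image (fun k => mb r (lb (i0 + k + 1))) with hL'
  have key : ∀ f, f ∉ U \ N → |out U f - wz2 q a r f| ≤ 1 ∧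
      (f ∈ U → out U f - wz2 q a r f = 0) := by
    intro f hf
    have w1 := H757.wz2_le_one hq a r f
    have w0 := H757.wz2_nonneg q a r f
    unfold out
    by_cases hfU : f ∈ U
    · rw [if_pos hfU, H757.wz2_off hq ha0 hN f hfU hf]
      simp
    · rw [if_neg hfU]
      refine ⟨?_, fun h => absurd h hfU⟩
      rw [abs_of_nonneg (by linarith)]
      linarith
  have hjmp : ∀ e, |jmp (U \ N) (fun f => out U f - wz2 q a r f) e| ≤ 1 ∨
      (lf e ∉ U \ N ∧ rt e ∉ U \ N) := by
    intro e
    unfold jmp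
    by_cases h1 : lf e ∈ U \ N
    · left
      rw [if_pos h1]
      by_cases h2 : rt e ∈ U \ N
      · rw [if_pos h2]
        simp
      · rw [if_neg h2, zero_sub, abs_neg]
        exact (key _ h2).1
    · by_cases h2 : rt e ∈ U \ N
      · left
        rw [if_neg h1, if_pos h2, sub_zero]
        exact (key _ h1).1
      · right
        exact ⟨h1, h2⟩
  have hpt : ∀ e ∈ (bd (U \ N)).filter (fun e => e.1.2 < 0), |Be Y V q n0 r κ x y s c1 e| *
      |jmp (U \ N) (fun f => out U f - wz2 q a r f) e| ≤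
        if e ∈ L ∪ L' then |Be Y V q n0 r κ x y s c1 e| else 0 := by
    intro e he
    rw [Finset.mem_filter] at he
    obtain ⟨he1, he2⟩ := he
    have hj1 : |jmp (U \ N) (fun f => out U f - wz2 q a r f) e| ≤ 1 := by
      rcases hjmp e with h | h
      · exact h
      · rw [H910.mem_bd] at he1
        rcases he1 with h' | h'
        · exact absurd h' h.2
        · exact absurd h' h.1
    split_ifs with hLL
    · exact mul_le_of_le_one_right (abs_nonneg _) hj1
    · refine le_of_eq ?_
      by_contra hne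
      have hne1 : Be Y V q n0 r κ x y s c1 e ≠ 0 := fun h => hne (by rw [h]; simp)
      have hne2 : jmp (U \ N) (fun f => out U f - wz2 q a r f) e ≠ 0 := fun h =>
        hne (by rw [h]; simp)
      -- one side in `U`, the other side outside, with `w ≠ 1`
      have hside : ((lf e ∈ U ∧ rt e ∉ U) ∧ wz2 q a r (rt e) ≠ 1) ∨
          ((rt e ∈ U ∧ lf e ∉ U) ∧ wz2 q a r (lf e) ≠ 1) := by
        rw [H910.mem_bd] at he1
        unfold jmp at hne2
        by_cases h1 : lf e ∈ U \ N
        · left
          rw [if_pos h1] at hne2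
          by_cases h2 : rt e ∈ U \ N
          · rw [if_pos h2, sub_self] at hne2
            exact absurd rfl hne2
          · rw [if_neg h2, zero_sub] at hne2
            have h3 : rt e ∉ U := fun h => hne2 (by
              simp only
              rw [(key _ h2).2 h, neg_zero])
            refine ⟨⟨(Finset.mem_sdiff.1 h1).1, h3⟩, fun h => hne2 ?_⟩
            simp only [out]
            rw [if_neg h3, h, sub_self, neg_zero]
        · right
          have h2 : rt e ∈ U \ N := by
            rcases he1 with h | h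
            · exact h
            · exact absurd h h1
          rw [if_neg h1, if_pos h2, sub_zero] at hne2
          have h3 : lf e ∉ U := fun h => hne2 (by
            simp only
            rw [(key _ h1).2 h])
          refine ⟨⟨(Finset.mem_sdiff.1 h2).1, h3⟩, fun h => hne2 ?_⟩
          simp only [out]
          rw [if_neg h3, h, sub_self]
      have hcs := bnd_cases (R := R) (r := r) he2 (by
        rcases hside with h | h
        · exact Or.inl h.1
        · exact Or.inr h.1)
      have hlbL : ∀ i : ℕ, 1 ≤ i → i ≤ R → ¬ (i : ℝ) ≤ a → ∃ k ∈ Finset.range R, i0 + k + 1 = i := by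
        intro i h1 h2 h3
        have h4 : i0 < i := by
          rw [hi0]
          exact (Nat.floor_lt ha0.le).2 (not_le.1 h3)
        exact ⟨i - i0 - 1, Finset.mem_range.2 (by omega), by omega⟩
      rcases hcs with ⟨i, h1, h2, rfl⟩ | ⟨i, h1, h2, rfl⟩ | ⟨h1, h2⟩ | ⟨h1, h2⟩ | h | h
      · -- left slit
        by_cases h3 : (i : ℝ) ≤ a
        · have e1 : lf (lb i) = (-(i : ℤ), -1) := by simp [lb, lf]
          have h4 : wz2 q a r (-(i : ℤ), -1) = 1 := H757.wz2_slit ha0 rfl (Or.inl ⟨by
            show -(i : ℤ) ≤ -1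
            omega, by
            push_cast
            simpa using h3⟩)
          have h5 : lf (lb i) ∉ U := by
            rw [e1, hU, H565.mem_SB]
            intro hc'
            exact hc'.2 ⟨rfl, Or.inl (by
              show -(i : ℤ) < 0
              omega)⟩
          rcases hside with h | h
          · exact h5 h.1.1
          · exact h.2 (by rw [e1]; exact h4)
        · obtain ⟨k, hk, hk'⟩ := hlbL i h1 h2 h3
          apply hLL
          rw [Finset.mem_union]
          left
          exact Finset.mem_image.2 ⟨k, hk, by rw [hk']⟩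
      · -- right slit
        by_cases h3 : (i : ℝ) ≤ a
        · have e1 : lf (mb r (lb i)) = ((r : ℤ) - 1 + i, -1) := by
            rw [mb_lb]
            simp [lf]
          have h4 : wz2 q a r ((r : ℤ) - 1 + i, -1) = 1 := H757.wz2_slit ha0 rfl (Or.inr ⟨by
            show (r : ℤ) ≤ (r : ℤ) - 1 + i
            omega, by
            push_cast
            linarith⟩)
          have h5 : lf (mb r (lb i)) ∉ U := by
            rw [e1, hU, H565.mem_SB]
            intro hc'
            exact hc'.2 ⟨rfl, Or.inr (by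
              show (r : ℤ) ≤ (r : ℤ) - 1 + i
              omega)⟩
          rcases hside with h | h
          · exact h5 h.1.1
          · exact h.2 (by rw [e1]; exact h4)
        · obtain ⟨k, hk, hk'⟩ := hlbL i h1 h2 h3
          apply hLL
          rw [Finset.mem_union]
          right
          exact Finset.mem_image.2 ⟨k, hk, by rw [hk']⟩
      · -- left tip
        have h4 : wz2 q a r (-1, -1) = 1 := H757.wz2_slit ha0 rfl (Or.inl ⟨le_rfl, by
          push_cast
          linarith⟩)
        rcases hside with h | h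
        · exact h.1.2 h1
        · exact h.2 (by rw [h2]; exact h4)
      · -- right tip
        have h4 : wz2 q a r ((r : ℤ), -1) = 1 := H757.wz2_slit ha0 rfl (Or.inr ⟨le_rfl, by
          push_cast
          linarith⟩)
        rcases hside with h | h
        · exact h.2 (by rw [h2]; exact h4)
        · exact h.1.2 h1
      · exact hne1 (Be_box hr hc1 hc4 hR (Or.inl h))
      · exact hne1 (Be_box hr hc1 hc4 hR (Or.inr h))
  refine (Finset.sum_le_sum hpt).trans ?_
  rw [← Finset.sum_filter]
  have h1 : ∑ e ∈ ((bd (U \ N)).filter (fun e => e.1.2 < 0)).filter (fun e => e ∈ L ∪ L'),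
      |Be Y V q n0 r κ x y s c1 e| ≤ ∑ e ∈ L ∪ L', |Be Y V q n0 r κ x y s c1 e| :=
    Finset.sum_le_sum_of_subset_of_nonneg (fun e he => (Finset.mem_filter.1 he).2)
      fun _ _ _ => abs_nonneg _
  have h2 : ∑ e ∈ L ∪ L', |Be Y V q n0 r κ x y s c1 e| ≤
      ∑ e ∈ L, |Be Y V q n0 r κ x y s c1 e| + ∑ e ∈ L', |Be Y V q n0 r κ x y s c1 e| := by
    rw [← Finset.sum_union_inter]
    exact le_add_of_nonneg_right (Finset.sum_nonneg fun _ _ => abs_nonneg _)
  have hG : ∑ k ∈ Finset.range R, (|Bm Y V q n0 r c1 (lb (i0 + k + 1))| +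
      |Bb r κ x y s (lb (i0 + k + 1))|) ≤ C + κ * s ^ 8 := by
    rw [Finset.sum_add_distrib]
    exact add_le_add hC (Bb_left hr hκ hs hsx R i0)
  have h3 : ∑ e ∈ L, |Be Y V q n0 r κ x y s c1 e| ≤ C + κ * s ^ 8 := by
    refine le_trans ?_ hG
    refine (Finset.sum_image_le_of_nonneg (g := fun k => lb (i0 + k + 1))
      (f := fun e => |Be Y V q n0 r κ x y s c1 e|) (s := Finset.range R)
      (fun _ _ => abs_nonneg _)).trans ?_
    exact Finset.sum_le_sum fun k _ => Be_lb hs hx hr hc1 hc4 (by omega)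
  have h4 : ∑ e ∈ L', |Be Y V q n0 r κ x y s c1 e| ≤ C + κ * s ^ 8 := by
    refine le_trans ?_ hG
    refine (Finset.sum_image_le_of_nonneg (g := fun k => mb r (lb (i0 + k + 1)))
      (f := fun e => |Be Y V q n0 r κ x y s c1 e|) (s := Finset.range R)
      (fun _ _ => abs_nonneg _)).trans ?_
    exact Finset.sum_le_sum fun k _ => Be_mb_lb hs hx hr hc1 hc4 (by omega)
  linarith

end Vale.Agent.P159.T1.S.H226
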